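import Crest.Agent.MT.Approx

set_option autoImplicit false

/-! A ping-pong action of a free group on the line, commuting with a translation. -/

namespace Crest.Agent.MT

open FreeGroup hiding map_mul map_inv map_one

/-- A lift to the line of an involution of the circle of length `P`. -/
noncomputable def kap (P x : ℝ) : ℝ :=
  if x - P * ⌊x / P⌋ < 1 then P * (⌊x / P⌋ - 1) + 1 + (P - 1) * (x - P * ⌊x / P⌋)
  else P * ⌊x / P⌋ + (x - P * ⌊x / P⌋ - 1) / (P - 1)

section
variable {P : ℝ}

theorem floor_per (hP : 2 ≤ P) (n : ℤ) (u : ℝ) (h0 : 0 ≤ u) (h1 : u < P) :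
    ⌊(P * n + u) / P⌋ = n := by
  rw [Int.floor_eq_iff, le_div_iff₀ (by linarith), div_lt_iff₀ (by linarith)]
  constructor <;> nlinarith

theorem kap_lo (hP : 2 ≤ P) (n : ℤ) (u : ℝ) (h0 : 0 ≤ u) (h1 : u < 1) :
    kap P (P * n + u) = P * (n - 1) + 1 + (P - 1) * u := by
  rw [kap, floor_per hP n u h0 (by linarith), add_sub_cancel_left, if_pos h1]

theorem kap_hi (hP : 2 ≤ P) (n : ℤ) (u : ℝ) (h0 : 1 ≤ u) (h1 : u < P) :
    kap P (P * n + u) = P * n + (u - 1) / (P - 1) := by
  rw [kap, floor_per hP n u (by linarith) h1, add_sub_cancel_left, if_neg (not_lt.2 h0)]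

theorem decomp (hP : 2 ≤ P) (x : ℝ) : ∃ (n : ℤ) (u : ℝ), x = P * n + u ∧ 0 ≤ u ∧ u < P := by
  have h0 : 0 < P := by linarith
  have h1 := Int.floor_le (x / P)
  have h2 := Int.lt_floor_add_one (x / P)
  rw [le_div_iff₀ h0] at h1
  rw [div_lt_iff₀ h0] at h2
  exact ⟨⌊x / P⌋, x - P * ⌊x / P⌋, by ring, by linarith, by linarith⟩

theorem hi_mem (hP : 2 ≤ P) {u : ℝ} (h0 : 1 ≤ u) (h1 : u < P) :
    0 ≤ (u - 1) / (P - 1) ∧ (u - 1) / (P - 1) < 1 :=
  ⟨div_nonneg (by linarith) (by linarith), (div_lt_one (by linarith)).2 (by linarith)⟩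

theorem kap_kap (hP : 2 ≤ P) (x : ℝ) : kap P (kap P x) = x - P := by
  obtain ⟨n, u, rfl, h0, h1⟩ := decomp hP x
  have hP1 : P - 1 ≠ 0 := by linarith
  rcases lt_or_ge u 1 with h | h
  · have := kap_hi hP (n - 1) (1 + (P - 1) * u) (by nlinarith) (by nlinarith)
    push_cast at this
    rw [kap_lo hP n u h0 h, add_assoc, this]
    field_simp
    ring
  · rw [kap_hi hP n u h h1, kap_lo hP n _ (hi_mem hP h h1).1 (hi_mem hP h h1).2]
    field_simp
    ring

theorem kap_add (hP : 2 ≤ P) (x : ℝ) (k : ℤ) : kap P (x + P * k) = kap P x + P * k := by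
  obtain ⟨n, u, rfl, h0, h1⟩ := decomp hP x
  have e : P * n + u + P * k = P * (n + k : ℤ) + u := by push_cast; ring
  rcases lt_or_ge u 1 with h | h
  · rw [e, kap_lo hP _ u h0 h, kap_lo hP _ u h0 h]; push_cast; ring
  · rw [e, kap_hi hP _ u h h1, kap_hi hP _ u h h1]; push_cast; ring

theorem kap_bd (hP : 2 ≤ P) (x : ℝ) : x - P ≤ kap P x ∧ kap P x ≤ x := by
  obtain ⟨n, u, rfl, h0, h1⟩ := decomp hP x
  rcases lt_or_ge u 1 with h | h
  · rw [kap_lo hP _ u h0 h]; constructor <;> nlinarith
  · have := hi_mem hP h h1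
    rw [kap_hi hP _ u h h1]; constructor <;> linarith

theorem kap_mono (hP : 2 ≤ P) : StrictMono (kap P) := by
  intro x y hxy
  obtain ⟨n, u, rfl, h0, h1⟩ := decomp hP x
  obtain ⟨n', u', rfl, h0', h1'⟩ := decomp hP y
  have hr : ∀ (n : ℤ) u, 0 ≤ u → u < P →
      P * (n - 1) + 1 ≤ kap P (P * n + u) ∧ kap P (P * n + u) < P * n + 1 := fun n u h0 h1 => by
    rcases lt_or_ge u 1 with h | h
    · rw [kap_lo hP _ u h0 h]; constructor <;> nlinarith
    · have := hi_mem hP h h1
      rw [kap_hi hP _ u h h1]; constructor <;> linarith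
  rcases lt_trichotomy n n' with h | rfl | h
  · have h2 : (n : ℝ) + 1 ≤ n' := by exact_mod_cast h
    have := (hr n u h0 h1).2
    have := (hr n' u' h0' h1').1
    nlinarith
  · have h2 : u < u' := by linarith
    rcases lt_or_ge u 1 with h | h <;> rcases lt_or_ge u' 1 with h' | h'
    · rw [kap_lo hP _ u h0 h, kap_lo hP _ u' h0' h']; nlinarith
    · have := hi_mem hP h' h1'
      rw [kap_lo hP _ u h0 h, kap_hi hP _ u' h' h1']; nlinarith
    · linarith
    · rw [kap_hi hP _ u h h1, kap_hi hP _ u' h' h1']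
      have := div_lt_div_of_pos_right (show u - 1 < u' - 1 by linarith)
        (show 0 < P - 1 by linarith)
      linarith
  · have h2 : (n' : ℝ) + 1 ≤ n := by exact_mod_cast h
    nlinarith

end

variable {r : ℕ}

/-- The period. -/
def per (r : ℕ) : ℝ := 6 * r + 3

theorem per_ge (r : ℕ) : 3 ≤ per r := by
  have : (0 : ℝ) ≤ r := by positivity
  rw [per]; linarith

theorem per_two (r : ℕ) : 2 ≤ per r := by linarith [per_ge r]

/-- The zone of a letter. -/
def idx (t : Fin r × Bool) : ℕ := 2 * t.1 + if t.2 then 1 else 0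

theorem idx_lt (t : Fin r × Bool) : idx t < 2 * r := by
  have := t.1.2
  rw [idx]; split_ifs <;> omega

theorem idx_inj {t t' : Fin r × Bool} (h : idx t = idx t') : t = t' := by
  rcases t with ⟨s, _ | _⟩ <;> rcases t' with ⟨s', _ | _⟩ <;>
    simp only [idx, if_true, Bool.false_eq_true, if_false] at h <;>
    first | omega | exact Prod.ext (Fin.ext (by dsimp only; omega)) rfl

/-- The left end of the core of a letter. -/
def cc (t : Fin r × Bool) : ℝ := 3 * idx t + 1

theorem cc_bd (t : Fin r × Bool) : 1 ≤ cc t ∧ cc t + 5 ≤ per r := by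
  have h1 : (idx t : ℝ) + 1 ≤ 2 * r := by exact_mod_cast idx_lt t
  have h2 : (0 : ℝ) ≤ idx t := by positivity
  rw [cc, per]; constructor <;> linarith

/-- The inverse letter. -/
def bar (t : Fin r × Bool) : Fin r × Bool := (t.1, !t.2)

/-- The action of a letter on the line. -/
noncomputable def act (t : Fin r × Bool) (x : ℝ) : ℝ :=
  cc t + kap (per r) (x - cc (bar t)) + if t.2 then 0 else per r

theorem act_bar (t : Fin r × Bool) (x : ℝ) : act (bar t) (act t x) = x := by
  rcases t with ⟨s, _ | _⟩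
  · have := kap_add (per_two r) (kap (per r) (x - cc (s, true))) 1
    simp only [Int.cast_one, mul_one] at this
    simp only [act, bar, Bool.not_false, Bool.not_true, if_true, Bool.false_eq_true, if_false,
      add_assoc, add_sub_cancel_left, this, kap_kap (per_two r)]
    ring
  · simp only [act, bar, Bool.not_false, Bool.not_true, if_true, Bool.false_eq_true, if_false,
      add_zero, add_sub_cancel_left, kap_kap (per_two r)]
    ring

theorem act_mono (t : Fin r × Bool) : StrictMono (act t) := fun x y h => by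
  have := kap_mono (per_two r) (show x - cc (bar t) < y - cc (bar t) by linarith)
  simp only [act]
  linarith

theorem act_add (t : Fin r × Bool) (x : ℝ) (k : ℤ) : act t (x + per r * k) = act t x + per r * k := by
  simp only [act]
  rw [show x + per r * k - cc (bar t) = x - cc (bar t) + per r * k by ring, kap_add (per_two r)]
  ring

theorem act_bd (t : Fin r × Bool) (x : ℝ) : x - 2 * per r ≤ act t x ∧ act t x ≤ x + 2 * per r := by
  have h1 := kap_bd (per_two r) (x - cc (bar t))
  have h2 := cc_bd t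
  have h3 := cc_bd (bar t)
  simp only [act]
  split_ifs <;> constructor <;> linarith

/-- The action of the free group. -/
noncomputable def AA (r : ℕ) : FreeGroup (Fin r) →* Equiv.Perm ℝ :=
  FreeGroup.lift fun s =>
    { toFun := act (s, true), invFun := act (s, false),
      left_inv := act_bar (s, true), right_inv := act_bar (s, false) }

theorem AA_single (t : Fin r × Bool) (x : ℝ) : AA r (mk [t]) x = act t x := by
  rcases t with ⟨s, _ | _⟩ <;> simp [AA, lift_mk]

theorem AA_cons (t : Fin r × Bool) (l : List (Fin r × Bool)) (x : ℝ) :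
    AA r (mk (t :: l)) x = act t (AA r (mk l) x) := by
  rw [show mk (t :: l) = mk [t] * mk l from rfl, map_mul, Equiv.Perm.mul_apply, AA_single]

theorem AA_nil (x : ℝ) : AA r (mk []) x = x := by simp [← one_eq_mk]

theorem AA_mono (g : FreeGroup (Fin r)) : StrictMono (AA r g) := by
  obtain ⟨l⟩ := g
  change StrictMono (AA r (mk l))
  induction l with
  | nil => intro x y h; simpa [AA_nil] using h
  | cons t l ih => intro x y h; simpa only [AA_cons] using act_mono t (ih h)

theorem AA_add (l : List (Fin r × Bool)) (x : ℝ) (k : ℤ) :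
    AA r (mk l) (x + per r * k) = AA r (mk l) x + per r * k := by
  induction l with
  | nil => simp only [AA_nil]
  | cons t l ih => simp only [AA_cons, ih, act_add]

theorem AA_bd (l : List (Fin r × Bool)) (x : ℝ) :
    x - 2 * per r * l.length ≤ AA r (mk l) x ∧ AA r (mk l) x ≤ x + 2 * per r * l.length := by
  induction l with
  | nil => simp [AA_nil]
  | cons t l ih =>
    have := act_bd t (AA r (mk l) x)
    rw [AA_cons, List.length_cons]
    push_cast
    constructor <;> linarith [ih.1, ih.2]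

/-- In the core of a letter. -/
def In (t : Fin r × Bool) (z : ℝ) : Prop :=
  ∃ n : ℤ, cc t + per r * n < z ∧ z < cc t + per r * n + 1
/-- Off the closed core of a letter. -/
def Out (t : Fin r × Bool) (z : ℝ) : Prop :=
  ∃ n : ℤ, cc t + per r * n + 1 < z ∧ z < cc t + per r * n + per r
/-- Off a neighbourhood of the core of a letter. -/
def Far (t : Fin r × Bool) (z : ℝ) : Prop :=
  ∃ n : ℤ, cc t + per r * n + 3 / 2 < z ∧ z < cc t + per r * n + per r - 1 / 2
/-- In the zone number `i`. -/
def Zone (r i : ℕ) (z : ℝ) : Prop :=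
  ∃ n : ℤ, 3 * i + per r * n < z ∧ z < 3 * i + per r * n + 3

theorem Far.out {t : Fin r × Bool} {z : ℝ} (h : Far t z) : Out t z := by
  obtain ⟨n, h1, h2⟩ := h
  exact ⟨n, by linarith, by linarith⟩

theorem In.zone {t : Fin r × Bool} {z : ℝ} (h : In t z) : Zone r (idx t) z := by
  obtain ⟨n, h1, h2⟩ := h
  rw [cc] at h1 h2
  exact ⟨n, by linarith, by linarith⟩

theorem Zone.far {i : ℕ} {t : Fin r × Bool} {z : ℝ} (h : Zone r i z) (hi : i ≤ 2 * r)
    (ht : i ≠ idx t) : Far t z := by
  obtain ⟨n, h1, h2⟩ := h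
  have h3 : (idx t : ℝ) + 1 ≤ 2 * r := by exact_mod_cast idx_lt t
  have h4 : (i : ℝ) ≤ 2 * r := by exact_mod_cast hi
  have h5 : (0 : ℝ) ≤ idx t := by positivity
  have h6 : (0 : ℝ) ≤ i := by positivity
  have h7 : per r = 6 * r + 3 := rfl
  rcases lt_or_gt_of_ne ht with h | h
  · have h8 : (i : ℝ) + 1 ≤ idx t := by exact_mod_cast h
    refine ⟨n - 1, ?_, ?_⟩ <;> rw [cc] <;> push_cast <;> nlinarith
  · have h8 : (idx t : ℝ) + 1 ≤ i := by exact_mod_cast h
    refine ⟨n, ?_, ?_⟩ <;> rw [cc] <;> linarith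

theorem In.far {t t' : Fin r × Bool} {z : ℝ} (h : In t z) (ht : t ≠ t') : Far t' z :=
  h.zone.far (idx_lt t).le fun h' => ht (idx_inj h')

theorem In.not_out {t : Fin r × Bool} {z : ℝ} (h : In t z) : ¬ Out t z := by
  rintro ⟨n', h3, h4⟩
  obtain ⟨n, h1, h2⟩ := h
  have := per_ge r
  have h5 : (n' : ℝ) < n := by nlinarith
  have h6 : (n : ℝ) < n' + 1 := by nlinarith
  have h7 : n' < n := by exact_mod_cast h5
  have h8 : n < n' + 1 := by exact_mod_cast h6
  omega

theorem Out.act {t : Fin r × Bool} {z : ℝ} (h : Out (bar t) z) : In t (act t z) := by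
  obtain ⟨n, h1, h2⟩ := h
  have hP := per_ge r
  have h3 := kap_hi (per_two r) n (z - cc (bar t) - per r * n) (by linarith) (by linarith)
  have h4 := (hi_mem (per_two r) (u := z - cc (bar t) - per r * n) (by linarith) (by linarith)).2
  have h5 : 0 < (z - cc (bar t) - per r * n - 1) / (per r - 1) :=
    div_pos (by linarith) (by linarith)
  rw [add_sub_cancel] at h3
  simp only [MT.act, h3]
  split_ifs
  · exact ⟨n, by linarith, by linarith⟩
  · exact ⟨n + 1, by push_cast; linarith, by push_cast; linarith⟩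

theorem in_of_reduced {x : ℝ} (hx : ∀ t : Fin r × Bool, Out t x) (l : List (Fin r × Bool)) :
    ∀ t, IsReduced (t :: l) → In t (AA r (mk (t :: l)) x) := by
  induction l with
  | nil => intro t _; rw [AA_cons, AA_nil]; exact (hx _).act
  | cons t' l ih =>
    intro t h
    rw [isReduced_cons_cons] at h
    rw [AA_cons]
    refine ((ih t' h.2).far ?_).out.act
    rintro rfl
    simpa [bar] using h.1

theorem free_of_out {x y : ℝ} (hx : ∀ t : Fin r × Bool, Out t x) (hy : ∀ t : Fin r × Bool, Out t y)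
    (g : FreeGroup (Fin r)) (h : AA r g x = y) : g = 1 := by
  by_contra hg
  rw [← toWord_eq_nil_iff] at hg
  obtain ⟨t, l, e⟩ := List.exists_cons_of_ne_nil hg
  have := in_of_reduced hx l t (e ▸ isReduced_toWord)
  rw [← e, mk_toWord, h] at this
  exact this.not_out (hy t)

end Crest.Agent.MT
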