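import Mathlib

set_option autoImplicit false

/-! Finite pieces of an ordered free action of a free group are approximated by finite actions. -/

namespace Crest.Agent.MT

open Finset
open FreeGroup hiding map_mul map_inv map_one

variable {S I : Type}

/-- Left multiplication on the first coordinate. -/
def sm (g : FreeGroup S) (a : FreeGroup S × I) : FreeGroup S × I := (g * a.1, a.2)

@[simp] theorem sm_fst (g : FreeGroup S) (a : FreeGroup S × I) : (sm g a).1 = g * a.1 := rfl
@[simp] theorem sm_snd (g : FreeGroup S) (a : FreeGroup S × I) : (sm g a).2 = a.2 := rfl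
theorem sm_sm (g h : FreeGroup S) (a : FreeGroup S × I) : sm g (sm h a) = sm (g * h) a := by
  simp [sm, mul_assoc]
theorem sm_one (a : FreeGroup S × I) : sm 1 a = a := by simp [sm]

theorem last_mul [DecidableEq S] (t : S × Bool) (g : FreeGroup S) (hg : g ≠ 1)
    (hg' : mk [t] * g ≠ 1) : (mk [t] * g).toWord.getLast? = g.toWord.getLast? := by
  have e : (mk [t] * g).toWord = reduce (t :: g.toWord) := by
    conv_lhs => rw [← mk_toWord (x := g), mul_mk, toWord_mk]
    rfl
  rw [Ne, ← toWord_eq_nil_iff] at hg hg'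
  rw [e] at hg' ⊢
  rw [reduce.cons, reduce_toWord] at hg' ⊢
  rcases hw : g.toWord with _ | ⟨hd, tl⟩
  · exact absurd hw hg
  · rw [hw] at hg'
    dsimp only at hg' ⊢
    split_ifs at hg' ⊢ with h
    · rcases tl with _ | ⟨a, tl⟩
      · exact absurd rfl hg'
      · simp [List.getLast?_cons_cons]
    · simp [List.getLast?_cons_cons]

/-- A finite model of the ordered piece `P`. -/
def Model (pos : FreeGroup S × I → ℝ) (P : Finset (FreeGroup S × I)) (ε : ℝ) : Prop :=
  ∃ (Y : Type) (_ : Fintype Y) (_ : Nonempty Y) (L : Type) (_ : Fintype L) (_ : LinearOrder L)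
    (ρ : FreeGroup S →* Equiv.Perm Y) (φ : FreeGroup S × I → Y → L) (Bad : Finset Y),
    (∀ s b, b ∈ P → sm (of s) b ∈ P → ∀ y, φ (sm (of s) b) (ρ (of s) y) = φ b y) ∧
    (#Bad : ℝ) ≤ ε * Fintype.card Y ∧
    ∀ y ∉ Bad, ∀ a ∈ P, ∀ b ∈ P, pos a < pos b → φ a y < φ b y

theorem count_bad {G Y L : Type} [Group G] [Fintype Y] [Fintype L] [DecidableEq Y] [DecidableEq L]
    (ρ : G →* Equiv.Perm Y) (Bad : Finset Y) (D : Finset G) (n : ℕ) (hD : #D ≤ n) (k : ℕ) (ε : ℝ)
    (hε : 0 < ε) (hk : 2 * Fintype.card L / ε ≤ k)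
    (hBad : (#Bad : ℝ) ≤ ε / (2 * (n + 1)) * Fintype.card Y) :
    (#((D.biUnion fun g => univ.filter fun y => ρ g y ∈ Bad) ×ˢ univ ∪
      univ ×ˢ (univ.biUnion fun l => univ.filter fun c : L → Fin (k + 1) => c l = 0)) : ℝ) ≤
      ε * Fintype.card (Y × (L → Fin (k + 1))) := by
  have h1 : ∀ g : G, #(univ.filter fun y => ρ g y ∈ Bad) = #Bad := fun g =>
    card_bij (fun y _ => ρ g y) (by simp) (by simp) fun y hy =>
      ⟨(ρ g)⁻¹ y, by simpa using hy, by simp⟩
  have h2 : ∀ l : L, #(univ.filter fun c : L → Fin (k + 1) => c l = 0) * (k + 1) =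
      (k + 1) ^ Fintype.card L := fun l => by
    have := Fintype.card_filter_piFinset_const_eq_of_mem (univ : Finset (Fin (k + 1))) l
      (mem_univ 0)
    rw [Fintype.piFinset_univ, card_univ, Fintype.card_fin] at this
    have h3 : 0 < Fintype.card L := Fintype.card_pos_iff.2 ⟨l⟩
    rw [this, ← pow_succ, Nat.sub_add_cancel h3]
  have h3 : #(D.biUnion fun g => univ.filter fun y => ρ g y ∈ Bad) ≤ n * #Bad := by
    refine card_biUnion_le.trans ?_
    simp only [h1, sum_const, smul_eq_mul]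
    exact Nat.mul_le_mul_right _ hD
  have h4 : #(univ.biUnion fun l : L => univ.filter fun c : L → Fin (k + 1) => c l = 0) *
      (k + 1) ≤ Fintype.card L * (k + 1) ^ Fintype.card L := by
    refine (Nat.mul_le_mul_right _ card_biUnion_le).trans ?_
    simp only [sum_mul, h2, sum_const, card_univ, smul_eq_mul, le_refl]
  refine le_trans (Nat.cast_le.2 (card_union_le _ _)) ?_
  simp only [card_product, card_univ, Fintype.card_prod, Fintype.card_fun, Fintype.card_fin]
  set B1 := #(D.biUnion fun g => univ.filter fun y => ρ g y ∈ Bad)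
  set B2 := #(univ.biUnion fun l : L => univ.filter fun c : L → Fin (k + 1) => c l = 0)
  have h3' : (B1 : ℝ) ≤ n * #Bad := by exact_mod_cast h3
  have h4' : (B2 : ℝ) * (k + 1) ≤ Fintype.card L * (k + 1) ^ Fintype.card L := by
    exact_mod_cast h4
  have h5 : (B1 : ℝ) ≤ ε / 2 * Fintype.card Y := by
    refine h3'.trans ((mul_le_mul_of_nonneg_left hBad (by positivity)).trans ?_)
    rw [← mul_assoc]
    refine mul_le_mul_of_nonneg_right ?_ (by positivity)
    rw [← mul_div_assoc, div_le_div_iff₀ (by positivity) (by positivity)]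
    nlinarith
  have h6 : (B2 : ℝ) ≤ ε / 2 * (k + 1) ^ Fintype.card L := by
    rw [div_le_iff₀ hε] at hk
    have h7 : (0 : ℝ) < (k + 1) ^ Fintype.card L := by positivity
    refine le_of_mul_le_mul_right (h4'.trans ?_) (show (0 : ℝ) < k + 1 by positivity)
    nlinarith
  push_cast
  have h7 := mul_le_mul_of_nonneg_right h5 (show (0 : ℝ) ≤ (k + 1) ^ Fintype.card L by positivity)
  have h8 := mul_le_mul_of_nonneg_left h6 (show (0 : ℝ) ≤ Fintype.card Y by positivity)
  linarith

theorem model_step (pos : FreeGroup S × I → ℝ) (hinj : Function.Injective pos)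
    (hinv : ∀ g a b, pos a < pos b → pos (sm g a) < pos (sm g b)) [DecidableEq (FreeGroup S × I)]
    (a0 : FreeGroup S × I) (P : Finset (FreeGroup S × I)) (ha0 : a0 ∉ P)
    (hmax : ∀ x ∈ P, pos x ≤ pos a0) (ih : ∀ ε > 0, Model pos P ε) (ε : ℝ) (hε : 0 < ε) :
    Model pos (insert a0 P) ε := by
  classical
  have hlt : ∀ x ∈ P, pos x < pos a0 := fun x hx =>
    lt_of_le_of_ne (hmax x hx) fun h => ha0 (hinj h ▸ hx)
  obtain ⟨Y, _, _, L, _, _, ρ, φ, Bad, hφ, hBad, hmono⟩ :=
    ih (ε / (2 * (#P * #P + 1))) (by positivity)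
  obtain ⟨k, hk⟩ := exists_nat_ge (2 * Fintype.card L / ε)
  let γ : S → Y → (L → Fin (k + 1)) := fun s y =>
    if sm (of s) a0 ∈ P then Pi.single (φ (sm (of s) a0) (ρ (of s) y)) 1
    else if sm (of s)⁻¹ a0 ∈ P then -Pi.single (φ (sm (of s)⁻¹ a0) y) 1 else 0
  let perm : S → Equiv.Perm (Y × (L → Fin (k + 1))) := fun s =>
    { toFun := fun x => (ρ (of s) x.1, x.2 + γ s x.1)
      invFun := fun x => ((ρ (of s))⁻¹ x.1, x.2 - γ s ((ρ (of s))⁻¹ x.1))
      left_inv := fun x => by simp
      right_inv := fun x => by simp }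
  let τ : FreeGroup S →* Equiv.Perm (Y × (L → Fin (k + 1))) := FreeGroup.lift perm
  have τof : ∀ s x, τ (of s) x = (ρ (of s) x.1, x.2 + γ s x.1) := fun s x => by
    simp only [τ, lift_apply_of]; rfl
  have τfst : ∀ g x, (τ g x).1 = ρ g x.1 := by
    intro g
    induction g using FreeGroup.induction_on with
    | C1 => simp
    | of s => intro x; rw [τof]
    | inv_of s h =>
      intro x
      obtain ⟨x, rfl⟩ := (τ (of s)).surjective x
      rw [h x]
      simp
    | mul g h hg hh => intro x; simp [hg, hh]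
  -- connectivity
  let Adj : FreeGroup S × I → FreeGroup S × I → Prop := fun b b' =>
    b ∈ P ∧ b' ∈ P ∧ ∃ s, b' = sm (of s) b ∨ b = sm (of s) b'
  have Adj_symm : ∀ b b', Adj b b' → Adj b' b := fun b b' ⟨h1, h2, s, h3⟩ => ⟨h2, h1, s, h3.symm⟩
  let Nb : FreeGroup S × I → Prop := fun b => b ∈ P ∧ ∃ t : S × Bool, b = sm (mk [t]) a0
  have acyc : ∀ r b, Relation.ReflTransGen Adj r b → r ∈ P → r.2 = a0.2 →
      b ∈ P ∧ b.2 = a0.2 ∧
        (b.1 * a0.1⁻¹).toWord.getLast? = (r.1 * a0.1⁻¹).toWord.getLast? := by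
    intro r b h hr hr2
    have ne1 : ∀ b ∈ P, b.2 = a0.2 → b.1 * a0.1⁻¹ ≠ 1 := fun b hb h2 h1 =>
      ha0 (Prod.ext (mul_inv_eq_one.1 h1) h2 ▸ hb)
    induction h with
    | refl => exact ⟨hr, hr2, rfl⟩
    | @tail b c _ hbc ih =>
      obtain ⟨h1, h2, h3⟩ := ih
      obtain ⟨-, hc, s, rfl | rfl⟩ := hbc
      · refine ⟨hc, h2, ?_⟩
        rw [← h3, sm_fst, mul_assoc]
        exact last_mul (s, true) _ (ne1 b h1 h2) (by
          have := ne1 _ hc h2
          rwa [sm_fst, mul_assoc] at this)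
      · refine ⟨hc, h2, ?_⟩
        rw [← h3, sm_fst, mul_assoc]
        exact (last_mul (s, true) _ (ne1 c hc h2) (by
          have := ne1 _ h1 h2
          rwa [sm_fst, mul_assoc] at this)).symm
  let R : FreeGroup S × I → FreeGroup S × I → Prop := fun b r =>
    Relation.ReflTransGen Adj r b ∧
      (Nb r ∨ ¬ ∃ r', Relation.ReflTransGen Adj r' b ∧ Nb r')
  have : Nonempty (FreeGroup S × I) := ⟨a0⟩
  let root : FreeGroup S × I → FreeGroup S × I := fun b => Classical.epsilon (R b)
  have root_spec : ∀ b, R b (root b) := fun b => by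
    apply Classical.epsilon_spec
    by_cases h : ∃ r', Relation.ReflTransGen Adj r' b ∧ Nb r'
    · obtain ⟨r, h1, h2⟩ := h
      exact ⟨r, h1, Or.inl h2⟩
    · exact ⟨b, Relation.ReflTransGen.refl, Or.inr h⟩
  have root_adj : ∀ b b', Adj b b' → root b = root b' := fun b b' h => by
    have e : ∀ r, Relation.ReflTransGen Adj r b ↔ Relation.ReflTransGen Adj r b' := fun r =>
      ⟨fun h' => h'.tail h, fun h' => h'.tail (Adj_symm _ _ h)⟩
    have : R b = R b' := by
      funext r
      simp only [R, e]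
    simp only [root, this]
  have root_nb : ∀ b, Nb b → root b = b := fun b hb => by
    obtain ⟨h1, h2⟩ := root_spec b
    obtain ⟨h3, t, h4⟩ := h2.resolve_right fun h => h ⟨b, Relation.ReflTransGen.refl, hb⟩
    obtain ⟨-, t', h5⟩ := hb
    have h6 := (acyc _ _ h1 h3 (by rw [h4]; rfl)).2.2
    rw [h4] at h6 ⊢
    rw [h5] at h6
    simp only [sm_fst, mul_inv_cancel_right, toWord_mk, reduce_singleton,
      List.getLast?_singleton, Option.some.injEq] at h6
    rw [← h6, ← h5]
  have γ0 : ∀ s b y l, b ∈ P → sm (of s) b ∈ P → y ∉ Bad → ρ (of s) y ∉ Bad → l ≤ φ b y →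
      γ s y l = 0 := by
    intro s b y l hb hsb hy hy' hl
    simp only [γ]
    split_ifs with h1 h2
    · have := hmono _ hy' _ hsb _ h1 (hinv _ _ _ (hlt b hb))
      rw [hφ s b hb hsb] at this
      exact Pi.single_eq_of_ne (hl.trans_lt this).ne _
    · have h3 := hinv (of s)⁻¹ _ _ (hlt _ hsb)
      rw [sm_sm, inv_mul_cancel, sm_one] at h3
      have := hmono _ hy _ hb _ h2 h3
      rw [Pi.neg_apply, Pi.single_eq_of_ne (hl.trans_lt this).ne _, neg_zero]
    · rfl
  have supp : ∀ r b, Relation.ReflTransGen Adj r b → b ∈ P → ∀ x : Y × (L → Fin (k + 1)),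
      (∀ b' ∈ P, ρ (b'.1 * b.1⁻¹) x.1 ∉ Bad) → ∀ l ≤ φ b x.1,
      (τ (b.1 * r.1⁻¹)⁻¹ x).2 l = x.2 l := by
    intro r b h
    induction h with
    | refl => intro _ x _ l _; simp
    | @tail b c _ hbc ih =>
      intro hc x hx l hl
      obtain ⟨hb, -, s, rfl | rfl⟩ := hbc
      · obtain ⟨x, rfl⟩ := (τ (of s)).surjective x
        have e : (τ ((sm (of s) b).1 * r.1⁻¹)⁻¹) (τ (of s) x) = τ (b.1 * r.1⁻¹)⁻¹ x := by
          rw [← Equiv.Perm.mul_apply, ← map_mul]
          simp [mul_assoc]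
        have hx' : ∀ b' ∈ P, ρ (b'.1 * b.1⁻¹) x.1 ∉ Bad := fun b' hb' => by
          have := hx b' hb'
          rw [τfst, ← Equiv.Perm.mul_apply, ← map_mul] at this
          simpa [mul_assoc] using this
        rw [τfst, hφ s b hb hc] at hl
        rw [e, ih hb x hx' l hl, τof]
        have := γ0 s b x.1 l hb hc (by simpa using hx' b hb) (by simpa using hx' _ hc) hl
        simp [this]
      · have e : τ (c.1 * r.1⁻¹)⁻¹ x = (τ ((sm (of s) c).1 * r.1⁻¹)⁻¹) (τ (of s) x) := by
          rw [← Equiv.Perm.mul_apply, ← map_mul]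
          simp [mul_assoc]
        have hx' : ∀ b' ∈ P, ρ (b'.1 * (sm (of s) c).1⁻¹) (τ (of s) x).1 ∉ Bad := fun b' hb' => by
          have := hx b' hb'
          rw [τfst, ← Equiv.Perm.mul_apply, ← map_mul]
          simpa [mul_assoc] using this
        rw [e, ih hb _ hx' l (by rwa [τfst, hφ s c hc hb]), τof]
        have := γ0 s c x.1 l hc hb (by simpa using hx c hc) (by simpa using hx _ hb) hl
        simp [this]
  let Φ : FreeGroup S × I → Y × (L → Fin (k + 1)) → (L → Fin (k + 1)) := fun b x =>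
    if b = a0 then x.2 else (τ (b.1 * (root b).1⁻¹)⁻¹ x).2 - Pi.single (φ b x.1) 1
  have Φ0 : ∀ x, Φ a0 x = x.2 := fun x => if_pos rfl
  have Φ1 : ∀ b ∈ P, ∀ x, Φ b x = (τ (b.1 * (root b).1⁻¹)⁻¹ x).2 - Pi.single (φ b x.1) 1 :=
    fun b hb x => if_neg (ne_of_mem_of_not_mem hb ha0)
  let D : Finset (FreeGroup S) := (P ×ˢ P).image fun q => q.1.1 * q.2.1⁻¹
  refine ⟨Y × (L → Fin (k + 1)), inferInstance, inferInstance, Lex (L → Fin (k + 1)),
    inferInstanceAs (Fintype (L → Fin (k + 1))), inferInstance, τ, fun b x => toLex (Φ b x),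
    (D.biUnion fun g => univ.filter fun y => ρ g y ∈ Bad) ×ˢ univ ∪
      univ ×ˢ (univ.biUnion fun l => univ.filter fun c => c l = 0), ?_, ?_, ?_⟩
  · intro s b hb hsb x
    refine congrArg toLex ?_
    rcases mem_insert.1 hb with rfl | hb
    · rcases mem_insert.1 hsb with h | h
      · exact absurd (congrArg Prod.fst h) (by simp)
      · rw [Φ0, Φ1 _ h, root_nb _ ⟨h, (s, true), rfl⟩, τof]
        simp [γ, h]
    · rcases mem_insert.1 hsb with h | h
      · have h1 : sm (of s)⁻¹ a0 = b := by rw [← h, sm_sm, inv_mul_cancel, sm_one]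
        have h2 : sm (of s) a0 ∉ P := fun h2 => by
          have h3 := hinv (of s) _ _ (hlt b hb)
          rw [h] at h3
          exact lt_asymm h3 (hlt _ h2)
        rw [h, Φ0, Φ1 _ hb, root_nb _ ⟨hb, (s, false), h1.symm⟩, τof]
        simp [γ, h2, h1, hb, sub_eq_add_neg]
      · rw [Φ1 _ hb, Φ1 _ h, ← root_adj b _ ⟨hb, h, s, Or.inl rfl⟩, τfst, hφ s b hb h,
          ← Equiv.Perm.mul_apply, ← map_mul]
        simp [mul_assoc]
  · exact count_bad ρ Bad D (#P * #P) (card_image_le.trans (card_product _ _).le) k ε hε hk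
      (by exact_mod_cast hBad)
  · intro x hx a ha b hb hab
    simp only [mem_union, mem_product, mem_biUnion, mem_filter, mem_univ, true_and, and_true,
      not_or, not_exists, not_and] at hx
    obtain ⟨hx1, hx2⟩ := hx
    have hx3 : ∀ b ∈ P, ∀ b' ∈ P, ρ (b'.1 * b.1⁻¹) x.1 ∉ Bad := fun b hb b' hb' =>
      hx1 _ (mem_image.2 ⟨(b', b), mem_product.2 ⟨hb', hb⟩, rfl⟩)
    have ha' : a ∈ P := by
      rcases mem_insert.1 ha with rfl | ha
      · rcases mem_insert.1 hb with rfl | hb
        · exact absurd hab (lt_irrefl _)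
        · exact absurd hab (lt_asymm (hlt b hb))
      · exact ha
    have k1 : ∀ b ∈ P, ∀ l ≤ φ b x.1, Φ b x l = x.2 l - (Pi.single (φ b x.1) 1 : L → _) l :=
      fun b hb l hl => by
        rw [Φ1 b hb, Pi.sub_apply, supp _ b (root_spec b).1 hb x (hx3 b hb) l hl]
    have k2 : ∀ l ≤ φ a x.1, Φ b x l = x.2 l := fun l hl => by
      rcases mem_insert.1 hb with rfl | hb
      · rw [Φ0]
      · have := hmono x.1 (by simpa using hx3 a ha' a ha') a ha' b hb hab
        rw [k1 b hb l (hl.trans this.le), Pi.single_eq_of_ne (hl.trans_lt this).ne, sub_zero]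
    refine ⟨φ a x.1, fun j hj => ?_, ?_⟩
    · change Φ a x j = Φ b x j
      rw [k1 a ha' j (le_of_lt hj), k2 j (le_of_lt hj), Pi.single_eq_of_ne (ne_of_lt hj), sub_zero]
    · change Φ a x _ < Φ b x _
      rw [k1 a ha' _ le_rfl, k2 _ le_rfl, Pi.single_eq_same, Fin.sub_one_lt_iff]
      exact Fin.pos_iff_ne_zero.2 (hx2 _)

theorem model_all (pos : FreeGroup S × I → ℝ) (hinj : Function.Injective pos)
    (hinv : ∀ g a b, pos a < pos b → pos (sm g a) < pos (sm g b))
    (P : Finset (FreeGroup S × I)) : ∀ ε > 0, Model pos P ε := by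
  classical
  induction P using Finset.induction_on_max_value pos with
  | empty =>
    intro ε hε
    exact ⟨Unit, inferInstance, inferInstance, Unit, inferInstance, inferInstance, 1,
      fun _ _ => (), ∅, by simp, by simp [hε.le], by simp⟩
  | insert a s h1 h2 ih => exact model_step pos hinj hinv a s h1 h2 ih

theorem approx [Fintype S] [Fintype I] (pos : FreeGroup S × I → ℝ) (hinj : Function.Injective pos)
    (hinv : ∀ g a b, pos a < pos b → pos (sm g a) < pos (sm g b)) (T : ℕ) (ε : ℝ) (hε : 0 < ε) :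
    ∃ (Y : Type) (_ : Fintype Y) (_ : Nonempty Y) (L : Type) (_ : Fintype L) (_ : LinearOrder L)
      (ρ : FreeGroup S →* Equiv.Perm Y) (ψ : I → Y → L) (Bad : Finset Y),
      (#Bad : ℝ) ≤ ε * Fintype.card Y ∧
      ∀ y ∉ Bad, ∀ (l l' : List (S × Bool)) (i i' : I), l.length ≤ T → l'.length ≤ T →
        pos (mk l, i) < pos (mk l', i') → ψ i (ρ (mk l)⁻¹ y) < ψ i' (ρ (mk l')⁻¹ y) := by
  classical
  have hfin := List.finite_length_le (S × Bool) T
  let P : Finset (FreeGroup S × I) := (hfin.toFinset.image mk) ×ˢ univ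
  have hP : ∀ (l : List (S × Bool)) i, l.length ≤ T → (mk l, i) ∈ P := fun l i hl =>
    mem_product.2 ⟨mem_image_of_mem _ (hfin.mem_toFinset.2 hl), mem_univ _⟩
  obtain ⟨Y, _, _, L, _, _, ρ, φ, Bad, hφ, hBad, hmono⟩ := model_all pos hinj hinv P ε hε
  have key : ∀ (l : List (S × Bool)) i y, l.length ≤ T →
      φ (mk l, i) y = φ (1, i) (ρ (mk l)⁻¹ y) := by
    intro l
    induction l with
    | nil => intro i y _; simp [← one_eq_mk]
    | cons t l ih =>
      intro i y hl
      have hl' : l.length ≤ T := by simp at hl; omega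
      rcases t with ⟨s, _ | _⟩
      · have e : mk l = of s * mk ((s, false) :: l) := by
          rw [show mk ((s, false) :: l) = (of s)⁻¹ * mk l from rfl, mul_inv_cancel_left]
        have := hφ s _ (hP _ i hl) (by rw [sm, ← e]; exact hP l i hl') y
        rw [← this, sm, ← e, ih i _ hl', ← Equiv.Perm.mul_apply, ← map_mul, e]
        simp
      · have e : mk ((s, true) :: l) = of s * mk l := rfl
        have := hφ s _ (hP l i hl') (hP _ i hl) ((ρ (of s))⁻¹ y)
        rw [ih i _ hl'] at this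
        rw [e, mul_inv_rev, map_mul, Equiv.Perm.mul_apply, map_inv ρ (of s), ← this]
        simp [sm]
  refine ⟨Y, inferInstance, inferInstance, L, inferInstance, inferInstance, ρ,
    fun i => φ (1, i), Bad, hBad, fun y hy l l' i i' hl hl' h => ?_⟩
  dsimp only
  rw [← key l i y hl, ← key l' i' y hl']
  exact hmono y hy _ (hP l i hl) _ (hP l' i' hl') h

end Crest.Agent.MT
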