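import Mathlib

set_option autoImplicit false

/-! Seminorms with Markov type `p`, and the cocycle form of the Markov type inequality. -/

namespace Crest.Agent.MT

open Filter Topology Finset

/-- The Markov type inequality for a function `N` on an additive group. -/
def Markov {V : Type*} [AddCommGroup V] (N : V → ℝ) (p K : ℝ) : Prop :=
  ∀ (S : Type) [Fintype S] [DecidableEq S] (w : S → ℝ) (P : Matrix S S ℝ),
    (∀ i, 0 ≤ w i) → ∑ i, w i = 1 → (∀ i j, 0 ≤ P i j) → (∀ i, ∑ j, P i j = 1) →
    (∀ i j, w i * P i j = w j * P j i) →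
    ∀ (f : S → V) (t : ℕ), 1 ≤ t →
      ∑ i, ∑ j, w i * (P ^ t) i j * N (f j - f i) ^ p ≤
        K ^ p * t * ∑ i, ∑ j, w i * P i j * N (f j - f i) ^ p

/-- A seminorm with Markov type `p` and constant `K`. -/
structure Good {V : Type*} [AddCommGroup V] [Module ℝ V] (N : V → ℝ) (p K : ℝ) : Prop where
  add : ∀ a b, N (a + b) ≤ N a + N b
  smul : ∀ (c : ℝ) a, N (c • a) = |c| * N a
  markov : Markov N p K

section
variable {V V' : Type*} [AddCommGroup V] [Module ℝ V] [AddCommGroup V'] [Module ℝ V']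
  {N : V → ℝ} {p K : ℝ}

theorem Good.zero (h : Good N p K) : N 0 = 0 := by
  simpa using h.smul 0 0

theorem Good.neg (h : Good N p K) (a : V) : N (-a) = N a := by
  simpa using h.smul (-1) a

theorem Good.nonneg (h : Good N p K) (a : V) : 0 ≤ N a := by
  have := h.add a (-a)
  rw [add_neg_cancel, h.zero, h.neg] at this
  linarith

theorem Good.sum_le (h : Good N p K) {ι : Type*} (s : Finset ι) (f : ι → V) :
    N (∑ i ∈ s, f i) ≤ ∑ i ∈ s, N (f i) := by
  classical
  induction s using Finset.induction_on with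
  | empty => simp [h.zero]
  | insert a s ha ih =>
    rw [sum_insert ha, sum_insert ha]
    exact (h.add _ _).trans (by linarith)

theorem Good.comp (h : Good N p K) (A : V' →ₗ[ℝ] V) : Good (fun a => N (A a)) p K where
  add a b := by rw [map_add]; exact h.add _ _
  smul c a := by rw [map_smul]; exact h.smul _ _
  markov S _ _ w P h1 h2 h3 h4 h5 f t ht := by
    have := h.markov S w P h1 h2 h3 h4 h5 (fun i => A (f i)) t ht
    simpa only [map_sub] using this

theorem Good.lim {ι : Type*} {F : Filter ι} [F.NeBot] {M : ι → V → ℝ} (hp : 0 ≤ p)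
    (h : ∀ i, Good (M i) p K) (hl : ∀ a, Tendsto (fun i => M i a) F (𝓝 (N a))) : Good N p K where
  add a b := le_of_tendsto_of_tendsto' (hl _) ((hl a).add (hl b)) fun i => (h i).add a b
  smul c a := by
    refine tendsto_nhds_unique (hl (c • a)) ?_
    simp only [fun i => (h i).smul c a]
    exact (hl a).const_mul _
  markov S _ _ w P h1 h2 h3 h4 h5 f t ht := by
    have key : ∀ Q : Matrix S S ℝ, Tendsto
        (fun k => ∑ i, ∑ j, w i * Q i j * M k (f j - f i) ^ p) F
        (𝓝 (∑ i, ∑ j, w i * Q i j * N (f j - f i) ^ p)) := fun Q =>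
      tendsto_finsetSum _ fun i _ => tendsto_finsetSum _ fun j _ =>
        ((hl _).rpow_const (Or.inr hp)).const_mul _
    exact le_of_tendsto_of_tendsto' (key _) ((key _).const_mul _) fun k =>
      (h k).markov S w P h1 h2 h3 h4 h5 f t ht

theorem Good.lp (hp : 1 ≤ p) {Ω : Type*} [Fintype Ω] (u : Ω → ℝ) (hu : ∀ ω, 0 ≤ u ω)
    {M : Ω → V → ℝ} (h : ∀ ω, Good (M ω) p K) :
    Good (fun a => (∑ ω, u ω * M ω a ^ p) ^ (1 / p)) p K := by
  have hp0 : 0 < p := by linarith
  have e1 : ∀ ω a, u ω * M ω a ^ p = (u ω ^ (1 / p) * M ω a) ^ p := fun ω a => by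
    rw [Real.mul_rpow (Real.rpow_nonneg (hu ω) _) ((h ω).nonneg a), ← Real.rpow_mul (hu ω),
      one_div_mul_cancel hp0.ne', Real.rpow_one]
  have e0 : ∀ a, 0 ≤ ∑ ω, u ω * M ω a ^ p := fun a =>
    sum_nonneg fun ω _ => mul_nonneg (hu ω) (Real.rpow_nonneg ((h ω).nonneg a) _)
  refine ⟨fun a b => ?_, fun c a => ?_, ?_⟩
  · simp only [e1]
    refine le_trans ?_ (Real.Lp_add_le_of_nonneg (s := univ) hp
      (fun ω _ => mul_nonneg (Real.rpow_nonneg (hu ω) _) ((h ω).nonneg a))
      (fun ω _ => mul_nonneg (Real.rpow_nonneg (hu ω) _) ((h ω).nonneg b)))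
    refine Real.rpow_le_rpow (by simpa only [e1] using e0 (a + b)) (sum_le_sum fun ω _ => ?_)
      (by positivity)
    refine Real.rpow_le_rpow (mul_nonneg (Real.rpow_nonneg (hu ω) _) ((h ω).nonneg _)) ?_ hp0.le
    rw [← mul_add]
    exact mul_le_mul_of_nonneg_left ((h ω).add a b) (Real.rpow_nonneg (hu ω) _)
  · have : ∑ ω, u ω * M ω (c • a) ^ p = |c| ^ p * ∑ ω, u ω * M ω a ^ p := by
      rw [mul_sum]
      refine sum_congr rfl fun ω _ => ?_
      rw [(h ω).smul, Real.mul_rpow (abs_nonneg c) ((h ω).nonneg a)]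
      ring
    rw [this, Real.mul_rpow (by positivity) (e0 a), ← Real.rpow_mul (abs_nonneg c),
      mul_one_div_cancel hp0.ne', Real.rpow_one]
  · intro S _ _ w P h1 h2 h3 h4 h5 f t ht
    have e2 : ∀ a, ((∑ ω, u ω * M ω a ^ p) ^ (1 / p)) ^ p = ∑ ω, u ω * M ω a ^ p := fun a => by
      rw [← Real.rpow_mul (e0 a), one_div_mul_cancel hp0.ne', Real.rpow_one]
    have e3 : ∀ Q : Matrix S S ℝ, ∑ i, ∑ j, w i * Q i j * (∑ ω, u ω * M ω (f j - f i) ^ p) =
        ∑ ω, u ω * ∑ i, ∑ j, w i * Q i j * M ω (f j - f i) ^ p := fun Q => by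
      simp only [mul_sum]
      rw [← sum_comm]
      refine (sum_congr rfl fun i _ => sum_comm).trans ?_
      rw [sum_comm]
      refine sum_congr rfl fun ω _ => ?_
      rw [sum_comm]
      refine sum_congr rfl fun i _ => sum_congr rfl fun j _ => by ring
    simp only [e2, e3]
    rw [mul_sum]
    refine sum_le_sum fun ω _ => ?_
    have := mul_le_mul_of_nonneg_left ((h ω).markov S w P h1 h2 h3 h4 h5 f t ht) (hu ω)
    linarith

end

/-! ### Chains driven by maps -/

/-- Sum of `φ` over all lists of length `n`. -/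
def lsum {T : Type} [Fintype T] : ℕ → (List T → ℝ) → ℝ
  | 0, φ => φ []
  | n + 1, φ => ∑ t, lsum n fun l => φ (t :: l)

theorem lsum_mono {T : Type} [Fintype T] : ∀ (n : ℕ) {φ ψ : List T → ℝ},
    (∀ l, l.length = n → φ l ≤ ψ l) → lsum n φ ≤ lsum n ψ
  | 0, _, _, h => h [] rfl
  | n + 1, _, _, h => sum_le_sum fun t _ => lsum_mono n fun l hl => h _ (by simp [hl])

theorem lsum_mul {T : Type} [Fintype T] (c : ℝ) : ∀ (n : ℕ) (φ : List T → ℝ),
    lsum n (fun l => c * φ l) = c * lsum n φ
  | 0, _ => rfl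
  | n + 1, φ => by
    simp only [lsum, mul_sum]
    exact sum_congr rfl fun t _ => lsum_mul c n _

theorem lsum_nonneg {T : Type} [Fintype T] : ∀ (n : ℕ) {φ : List T → ℝ},
    (∀ l, 0 ≤ φ l) → 0 ≤ lsum n φ
  | 0, _, h => h []
  | n + 1, _, h => sum_nonneg fun _ _ => lsum_nonneg n fun _ => h _

/-- Run the maps of a list, first letter first. -/
def run {T Y : Type*} (g : T → Y → Y) (l : List T) (x : Y) : Y := l.foldl (fun y t => g t y) x

@[simp] theorem run_nil {T Y : Type*} (g : T → Y → Y) (x : Y) : run g [] x = x := rfl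
@[simp] theorem run_cons {T Y : Type*} (g : T → Y → Y) (t : T) (l : List T) (x : Y) :
    run g (t :: l) x = run g l (g t x) := rfl

theorem pow_sum_eq {T S : Type} [Fintype T] [Nonempty T] [Fintype S] [DecidableEq S]
    (g : T → S → S) (P : Matrix S S ℝ)
    (hP : ∀ i j, P i j = (∑ t, if g t i = j then (1 : ℝ) else 0) / Fintype.card T) :
    ∀ (n : ℕ) (i : S) (φ : S → ℝ), ∑ j, (P ^ n) i j * φ j =
      lsum n (fun l => φ (run g l i)) / (Fintype.card T : ℝ) ^ n
  | 0, i, φ => by simp [lsum, Matrix.one_apply]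
  | n + 1, i, φ => by
    have hc : (Fintype.card T : ℝ) ≠ 0 := by positivity
    have : ∑ j, (P ^ (n + 1)) i j * φ j = ∑ k, P i k * ∑ j, (P ^ n) k j * φ j := by
      simp only [pow_succ', Matrix.mul_apply, sum_mul, mul_sum, mul_assoc]
      exact sum_comm
    rw [this]
    simp only [pow_sum_eq g P hP n, hP, lsum, run_cons, sum_div, sum_mul]
    rw [sum_comm]
    refine sum_congr rfl fun t _ => ?_
    rw [sum_eq_single (g t i)]
    · simp only [if_true]
      rw [pow_succ]
      field_simp
    · intro b _ hb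
      simp [Ne.symm hb]
    · simp

theorem markov_maps {V : Type*} [AddCommGroup V] {N : V → ℝ} {p K : ℝ} (h : Markov N p K)
    {T S : Type} [Fintype T] [Nonempty T] [Fintype S] [Nonempty S] (bar : T ≃ T)
    (g : T → S → S) (hg : ∀ t x y, x ≠ y → (g t x = y ↔ g (bar t) y = x)) (f : S → V)
    (n : ℕ) (hn : 1 ≤ n) :
    (∑ x, lsum n fun l => N (f (run g l x) - f x) ^ p) / (Fintype.card T : ℝ) ^ n ≤
      K ^ p * n * ((∑ x, ∑ t, N (f (g t x) - f x) ^ p) / Fintype.card T) := by
  classical
  have hc : (0 : ℝ) < Fintype.card T := by positivity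
  have hs : (0 : ℝ) < Fintype.card S := by positivity
  set P : Matrix S S ℝ := fun i j => (∑ t, if g t i = j then (1 : ℝ) else 0) / Fintype.card T
    with hPdef
  have hP : ∀ i j, P i j = (∑ t, if g t i = j then (1 : ℝ) else 0) / Fintype.card T :=
    fun _ _ => rfl
  have key := h S (fun _ => (Fintype.card S : ℝ)⁻¹) P (fun _ => by positivity)
    (by simp [hs.ne']) (fun i j => by rw [hP]; positivity)
    (fun i => by
      simp only [hP, ← sum_div]
      rw [sum_comm]
      simp [hc.ne'])
    (fun i j => by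
      by_cases hij : i = j
      · rw [hij]
      · rw [hP, hP, ← bar.sum_comp fun t => if g t j = i then (1 : ℝ) else 0]
        simp only [hg _ _ _ hij]) f n hn
  have e1 := pow_sum_eq g P hP n
  have e2 := pow_sum_eq g P hP 1
  simp only [pow_one, lsum, run_cons, run_nil] at e2
  simp only [mul_assoc, ← mul_sum] at key
  simp only [e1, e2, ← sum_div] at key
  rw [mul_left_comm (n : ℝ), mul_left_comm (K ^ p)] at key
  rw [mul_assoc]
  exact le_of_mul_le_mul_left key (by positivity)

theorem markov_folner {V : Type*} [AddCommGroup V] [Module ℝ V] {N : V → ℝ} {p K : ℝ}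
    (h : Good N p K) (hp : 0 < p) (hK : 0 ≤ K)
    {T Ω : Type} [Fintype T] [Nonempty T] (bar : T ≃ T)
    (g : T → Ω → Ω) (hg : ∀ t x, g (bar t) (g t x) = x) (hg' : ∀ t x, g t (g (bar t) x) = x)
    (f : Ω → V) (n : ℕ) (hn : 1 ≤ n) (W W' : Finset Ω)
    (hW : ∀ x ∈ W', ∀ l : List T, l.length ≤ n → run g l x ∈ W) :
    (∑ x ∈ W', lsum n fun l => N (f (run g l x) - f x) ^ p) / (Fintype.card T : ℝ) ^ n ≤
      K ^ p * n * ((∑ x ∈ W, ∑ t, N (f (g t x) - f x) ^ p) / Fintype.card T) := by
  classical
  have hsub : W' ⊆ W := fun x hx => hW x hx [] (Nat.zero_le _)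
  have hnn : ∀ a, 0 ≤ N a ^ p := fun a => Real.rpow_nonneg (h.nonneg a) _
  rcases W.eq_empty_or_nonempty with rfl | hne
  · rw [subset_empty.1 hsub]; simp
  have : Nonempty W := hne.to_subtype
  let g' : T → W → W := fun t x => if hx : g t x ∈ W then ⟨g t x, hx⟩ else x
  have hrun : ∀ (l : List T) (x : W), (∀ l' : List T, l'.length ≤ l.length → run g l' x ∈ W) →
      ((run g' l x : W) : Ω) = run g l x := by
    intro l
    induction l with
    | nil => intro x _; rfl
    | cons t l ih =>
      intro x hx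
      have h1 : g t x ∈ W := hx [t] (by simp)
      have h2 : g' t x = ⟨g t x, h1⟩ := dif_pos h1
      rw [run_cons, run_cons, h2]
      exact ih _ fun l' hl' => hx (t :: l') (by simpa using hl')
  have key := markov_maps h.markov bar g' (fun t x y hxy => by
    constructor
    · intro h1
      by_cases hx : g t x ∈ W
      · have h2 : g t x = y := by rw [← h1]; simp only [g', dif_pos hx]
        have h3 : g (bar t) y = x := by rw [← h2, hg]
        have h4 : g (bar t) y ∈ W := by rw [h3]; exact x.2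
        simp only [g', dif_pos h4]
        exact Subtype.ext h3
      · exact absurd (by rw [← h1]; simp only [g', dif_neg hx]) hxy
    · intro h1
      by_cases hy : g (bar t) y ∈ W
      · have h2 : g (bar t) y = x := by rw [← h1]; simp only [g', dif_pos hy]
        have h3 : g t x = y := by rw [← h2, hg']
        have h4 : g t x ∈ W := by rw [h3]; exact y.2
        simp only [g', dif_pos h4]
        exact Subtype.ext h3
      · exact absurd (by rw [← h1]; simp only [g', dif_neg hy]) hxy) (fun x => f x) n hn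
  refine le_trans ?_ (key.trans ?_)
  · refine div_le_div_of_nonneg_right ?_ (by positivity)
    calc ∑ x ∈ W', lsum n (fun l => N (f (run g l x) - f x) ^ p)
        = ∑ x ∈ W, if x ∈ W' then lsum n (fun l => N (f (run g l x) - f x) ^ p) else 0 := by
          rw [← sum_filter, filter_mem_eq_inter, inter_eq_right.2 hsub]
      _ = ∑ x : W, if (x : Ω) ∈ W' then lsum n (fun l => N (f (run g l x) - f x) ^ p) else 0 :=
          (sum_coe_sort W fun x =>
            if x ∈ W' then lsum n (fun l => N (f (run g l x) - f x) ^ p) else 0).symm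
      _ ≤ _ := by
          refine sum_le_sum fun x _ => ?_
          split_ifs with hx
          · refine lsum_mono n fun l hl => ?_
            rw [hrun l x fun l' hl' => hW x hx l' (hl ▸ hl')]
          · exact lsum_nonneg n fun l => hnn _
  · refine mul_le_mul_of_nonneg_left (div_le_div_of_nonneg_right ?_ (by positivity))
      (by positivity)
    rw [← sum_coe_sort W fun x => ∑ t, N (f (g t x) - f x) ^ p]
    refine sum_le_sum fun x _ => sum_le_sum fun t _ => ?_
    by_cases hx : g t x ∈ W
    · simp only [g', dif_pos hx, le_refl]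
    · simp only [g', dif_neg hx, sub_self, h.zero, Real.zero_rpow hp.ne']
      exact hnn _

/-- One letter acting on the state set. -/
def mv {S Y : Type} (σ : S → Equiv.Perm Y) : S × Bool → Y → Y
  | (s, true), y => (σ s).symm y
  | (s, false), y => σ s y

/-- The displacement of one letter. -/
def stepV {S Y V : Type*} [AddCommGroup V] (σ : S → Equiv.Perm Y) (v : S → Y → V) :
    S × Bool → Y → V
  | (s, true), y => v s y
  | (s, false), y => -v s (σ s y)

/-- The displacement along a word. -/
def cocV {S Y : Type} {V : Type*} [AddCommGroup V] (σ : S → Equiv.Perm Y) (v : S → Y → V) :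
    List (S × Bool) → Y → V
  | [], _ => 0
  | t :: l, y => stepV σ v t y + cocV σ v l (mv σ t y)

theorem markov_cocycle {V : Type*} [AddCommGroup V] [Module ℝ V] {N : V → ℝ} {p K : ℝ}
    (h : Good N p K) (hp : 0 < p) (hK : 0 ≤ K)
    {S Y : Type} [Fintype S] [Nonempty S] [Fintype Y] (σ : S → Equiv.Perm Y) (v : S → Y → V)
    (n : ℕ) (hn : 1 ≤ n) :
    (∑ y, lsum n fun l => N (cocV σ v l y) ^ p) / (2 * Fintype.card S : ℝ) ^ n ≤
      2 * K ^ p * n * ((∑ y, ∑ s, N (v s y) ^ p) / Fintype.card S) := by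
  classical
  let g : S × Bool → Y × (S × Y → ℤ) → Y × (S × Y → ℤ) := fun t x =>
    (mv σ t x.1, x.2 + stepV σ (fun s y => Pi.single (s, y) (1 : ℤ)) t x.1)
  let lin : (S × Y → ℤ) →+ V :=
    { toFun := fun z => ∑ k, z k • v k.1 k.2
      map_zero' := by simp
      map_add' := fun a b => by simp [add_smul, sum_add_distrib] }
  have hlin : ∀ s y, lin (Pi.single (s, y) 1) = v s y := fun s y => by
    change ∑ k, (Pi.single (s, y) (1 : ℤ) : S × Y → ℤ) k • v k.1 k.2 = _
    rw [sum_eq_single (s, y)]
    · simp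
    · intro b _ hb; simp [hb]
    · simp
  let f : Y × (S × Y → ℤ) → V := fun x => lin x.2
  have hstep : ∀ t x, f (g t x) - f x = stepV σ v t x.1 := by
    rintro ⟨s, _ | _⟩ x <;> simp [f, g, stepV, hlin]
  have hcoc : ∀ (l : List (S × Bool)) x, f (run g l x) - f x = cocV σ v l x.1 := by
    intro l
    induction l with
    | nil => intro x; simp [cocV]
    | cons t l ih =>
      intro x
      rw [run_cons, cocV, ← hstep, ← ih (g t x)]
      abel
  have hbd : ∀ (l : List (S × Bool)) x k, |(run g l x).2 k - x.2 k| ≤ l.length := by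
    intro l
    induction l with
    | nil => intro x k; simp
    | cons t l ih =>
      intro x k
      have h1 := ih (g t x) k
      have h2 : |(g t x).2 k - x.2 k| ≤ 1 := by
        rcases t with ⟨s, _ | _⟩ <;>
        · simp only [g, stepV, Pi.add_apply, Pi.neg_apply, add_sub_cancel_left, abs_neg,
            Pi.single_apply]
          split_ifs <;> simp
      rw [run_cons, List.length_cons]
      have := abs_sub_le ((run g l (g t x)).2 k) ((g t x).2 k) (x.2 k)
      push_cast
      linarith
  set d := Fintype.card (S × Y) with hd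
  set M : ℕ := 4 * n * (d + 1) with hM
  let bar : S × Bool ≃ S × Bool := Equiv.prodCongr (Equiv.refl S) Equiv.boolNot
  have key := markov_folner h hp hK bar g
    (by rintro ⟨s, _ | _⟩ x <;> simp [g, bar, mv, stepV])
    (by rintro ⟨s, _ | _⟩ x <;> simp [g, bar, mv, stepV]) f n hn
    (univ ×ˢ Fintype.piFinset fun _ => Finset.Ico (0 : ℤ) M)
    (univ ×ˢ Fintype.piFinset fun _ => Finset.Ico (n : ℤ) (M - n))
    (fun x hx l hl => by
      simp only [mem_product, mem_univ, true_and, Fintype.mem_piFinset, mem_Ico] at hx ⊢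
      intro k
      have h1 := abs_le.1 (hbd l x k)
      have h2 := hx k
      have h3 : (l.length : ℤ) ≤ n := by exact_mod_cast hl
      omega)
  simp only [hcoc, hstep, sum_product, sum_const, Fintype.card_piFinset, Int.card_Ico,
    prod_const, card_univ, ← hd, nsmul_eq_mul, ← mul_sum, Fintype.card_prod,
    Fintype.card_bool] at key
  have e1 : ((M : ℤ) - n - n).toNat = M - 2 * n := by omega
  have e2 : ((M : ℤ) - 0).toNat = M := by omega
  have e3 : ∑ y, ∑ t, N (stepV σ v t y) ^ p = 2 * ∑ y, ∑ s, N (v s y) ^ p := by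
    simp only [Fintype.sum_prod_type, Fintype.sum_bool, stepV, h.neg, sum_add_distrib]
    rw [two_mul, sum_comm (f := fun y s => N (v s (σ s y)) ^ p), sum_comm
      (f := fun y s => N (v s y) ^ p)]
    congr 1
    exact sum_congr rfl fun s _ => Equiv.sum_comp (σ s) fun y => N (v s y) ^ p
  rw [e1, e2, e3] at key
  have hMn : 2 * n ≤ M := by rw [hM]; nlinarith
  have hM0 : (0 : ℝ) < M := by
    have : 0 < M := by omega
    exact_mod_cast this
  have e4 : (M : ℝ) ^ d ≤ 2 * ((M - 2 * n : ℕ) : ℝ) ^ d := by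
    have hx : ((M - 2 * n : ℕ) : ℝ) = M * (1 + -(1 / (2 * (d + 1)))) := by
      rw [Nat.cast_sub hMn, hM]
      push_cast
      field_simp
      ring
    have hb := one_add_mul_le_pow (a := -(1 / (2 * (d + 1)) : ℝ))
      (by
        have : (1 / (2 * (d + 1)) : ℝ) ≤ 1 := by
          rw [div_le_one (by positivity)]
          have : (0 : ℝ) ≤ d := by positivity
          linarith
        linarith) d
    have hc : (1 / 2 : ℝ) ≤ 1 + d * -(1 / (2 * (d + 1))) := by
      have : (d : ℝ) * (1 / (2 * (d + 1))) ≤ 1 / 2 := by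
        rw [mul_one_div, div_le_iff₀ (by positivity)]
        linarith
      linarith
    rw [hx, mul_pow]
    have : (0 : ℝ) < (M : ℝ) ^ d := by positivity
    nlinarith
  have hc : (0 : ℝ) < Fintype.card S := by positivity
  set A := ∑ y, lsum n fun l => N (cocV σ v l y) ^ p
  set B := ∑ y, ∑ s, N (v s y) ^ p
  have hA : 0 ≤ A := sum_nonneg fun y _ => lsum_nonneg n fun l => Real.rpow_nonneg (h.nonneg _) _
  push_cast at key
  have hMd : (0 : ℝ) < (M : ℝ) ^ d := by positivity
  refine le_of_mul_le_mul_left ?_ hMd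
  have e5 : (M : ℝ) ^ d * (A / (2 * Fintype.card S) ^ n) ≤
      2 * (((M - 2 * n : ℕ) : ℝ) ^ d * A / (Fintype.card S * 2) ^ n) := by
    rw [mul_comm (Fintype.card S : ℝ) 2, mul_div_assoc, ← mul_assoc]
    exact mul_le_mul_of_nonneg_right e4 (by positivity)
  refine e5.trans ?_
  have e6 : (M : ℝ) ^ d * (2 * K ^ p * n * (B / Fintype.card S)) =
      2 * (K ^ p * n * ((M : ℝ) ^ d * (2 * B) / (Fintype.card S * 2))) := by
    field_simp
  rw [e6]
  exact mul_le_mul_of_nonneg_left key (by norm_num)

end Crest.Agent.MT
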