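import Crest.Agent.MT.Model

set_option autoImplicit false

/-! No spreading-invariant seminorm dominating tail sums has Markov type `p > 1`. -/

namespace Crest.Agent.MT

open Finset
open FreeGroup hiding map_mul map_inv map_one

open Classical in
theorem count_nodup (r : ℕ) : ∀ (n : ℕ) (F : Finset (Fin r)), #F + n ≤ r →
    (2 * (r - #F - n : ℝ)) ^ n ≤ lsum n fun l : List (Fin r × Bool) =>
      if (l.map Prod.fst).Nodup ∧ ∀ s ∈ l.map Prod.fst, s ∉ F then 1 else 0
  | 0, F, _ => by simp [lsum]
  | n + 1, F, h => by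
    have h0 : (#F : ℝ) + (n + 1) ≤ r := by exact_mod_cast h
    have h1 : ∀ t : Fin r × Bool, (if t.1 ∈ F then 0 else (2 * (r - #F - (n + 1 : ℕ) : ℝ)) ^ n) ≤
        lsum n fun l : List (Fin r × Bool) =>
          if ((t :: l).map Prod.fst).Nodup ∧ ∀ s ∈ (t :: l).map Prod.fst, s ∉ F then 1 else 0 := by
      intro t
      split_ifs with ht
      · exact lsum_nonneg n fun l => by split_ifs <;> norm_num
      · have := count_nodup r n (insert t.1 F) (by rw [card_insert_of_notMem ht]; omega)
        rw [card_insert_of_notMem ht] at this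
        push_cast at this ⊢
        rw [show (r : ℝ) - #F - (n + 1) = r - (#F + 1) - n by ring]
        refine this.trans (lsum_mono n fun l _ => ?_)
        split_ifs with h2 h3
        · rfl
        · refine absurd ⟨?_, ?_⟩ h3
          · rw [List.map_cons, List.nodup_cons]
            exact ⟨fun h4 => h2.2 _ h4 (mem_insert_self _ _), h2.1⟩
          · intro s hs
            rcases List.mem_cons.1 hs with rfl | hs
            · exact ht
            · exact fun h4 => h2.2 s hs (mem_insert_of_mem h4)
        · norm_num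
        · rfl
    refine le_trans ?_ (sum_le_sum fun t _ => h1 t)
    rw [Fintype.sum_prod_type]
    simp only [Fintype.sum_bool, ← two_mul, ← mul_sum]
    rw [sum_ite, sum_const_zero, zero_add, sum_const, filter_notMem_eq_sdiff,
      card_sdiff_of_subset (subset_univ F), card_univ, Fintype.card_fin, nsmul_eq_mul,
      Nat.cast_sub (by omega), pow_succ]
    have h2 : (0 : ℝ) ≤ (2 * (r - #F - (n + 1 : ℕ) : ℝ)) ^ n := by
      push_cast
      exact pow_nonneg (by linarith) _
    have h3 : (0 : ℝ) ≤ n := by positivity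
    push_cast at h2 ⊢
    nlinarith

open Classical in
theorem count_nodup' (n : ℕ) (hn : 1 ≤ n) : (2 * (2 * n * n : ℕ) : ℝ) ^ n / 2 ≤
    lsum n fun l : List (Fin (2 * n * n) × Bool) =>
      if (l.map Prod.fst).Nodup then 1 else 0 := by
  have h := count_nodup (2 * n * n) n ∅ (by simp; nlinarith)
  simp only [card_empty, Nat.cast_zero, sub_zero, notMem_empty, not_false_eq_true, implies_true,
    and_true] at h
  refine le_trans ?_ h
  have hn' : (1 : ℝ) ≤ n := by exact_mod_cast hn
  have e : (2 * ((2 * n * n : ℕ) - n : ℝ)) = (2 * (2 * n * n : ℕ) : ℝ) * (1 + -(1 / (2 * n))) := by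
    push_cast; field_simp; ring
  have hb := one_add_mul_le_pow (a := -(1 / (2 * n) : ℝ)) (by
    have : (1 / (2 * n) : ℝ) ≤ 1 := by rw [div_le_one (by positivity)]; linarith
    linarith) n
  have e2 : 1 + (n : ℝ) * -(1 / (2 * n)) = 1 / 2 := by field_simp; ring
  rw [e, mul_pow _ (1 + _)]
  rw [e2] at hb
  have : (0 : ℝ) ≤ (2 * (2 * n * n : ℕ) : ℝ) ^ n := by positivity
  nlinarith

theorem coc_eq {r m N : ℕ} {Y L : Type} (ρ : FreeGroup (Fin r) →* Equiv.Perm Y)
    (ψ : II r m N → Y → L) (l : List (Fin r × Bool)) : ∀ y : Y,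
    cocV (fun s => ρ (of s)) (fun s y => blockF fun k => ψ (s, k) y) l y =
      (WW m N l).mapDomain fun a => ψ a.2 (ρ a.1⁻¹ y) := by
  induction l with
  | nil => intro y; simp [cocV, WW]
  | cons t l ih =>
    intro y
    rw [cocV, WW, Finsupp.mapDomain_add, ih, ← Finsupp.mapDomain_comp]
    congr 1
    · rcases t with ⟨s, _ | _⟩
      · have : ∀ (W : FreeGroup (Fin r) × II r m N →₀ ℝ) (φ : _ → L),
            (-W).mapDomain φ = -W.mapDomain φ := fun W φ =>
          map_neg (Finsupp.mapDomain.addMonoidHom φ) W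
        simp only [stepV, bb, this, blockF_map]
        rw [show mk [(s, false)] = (of s)⁻¹ from rfl, inv_inv]
      · simp only [stepV, bb, blockF_map, ← one_eq_mk, inv_one, map_one, Equiv.Perm.one_apply]
    · congr 1
      funext a
      rcases t with ⟨s, _ | _⟩
      · simp only [mv, show mk [(s, false)] = (of s)⁻¹ from rfl, Function.comp, sm_fst, sm_snd,
          mul_inv_rev, inv_inv, map_mul, Equiv.Perm.mul_apply]
      · simp only [mv, show mk [(s, true)] = of s from rfl, Function.comp, sm_fst, sm_snd,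
          mul_inv_rev, map_mul, Equiv.Perm.mul_apply, map_inv ρ (of s), Equiv.Perm.inv_def]

theorem spread_false {ν : List ℝ → ℝ} {θ p K : ℝ} (h : Spread ν θ p K) (hθ : 0 < θ) (hp : 1 < p)
    (hK : 0 < K) : False := by
  classical
  have hp0 : 0 < p := by linarith
  obtain ⟨k, hk1, hk2⟩ : ∃ k : ℕ, 1 ≤ k ∧ 32 * K ^ p * 4 ^ p < (k : ℝ) ^ (p - 1) := by
    have := (tendsto_rpow_atTop (show 0 < p - 1 by linarith)).comp tendsto_natCast_atTop_atTop
    exact ((Filter.eventually_ge_atTop 1).and (this.eventually_gt_atTop _)).exists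
  obtain ⟨N, hN, hpig⟩ := h.pigeon hθ k (2 * (16 * k + 2) - 1) hk1
  have hlow := h.alt_lower N (2 * (16 * k + 2) - 1)
  rw [show 2 * (16 * k + 2) - 1 + 1 = 2 * (16 * k + 2) by omega] at hpig hlow
  set m := 2 * (16 * k + 2) with hm
  set a := ν (alt N m) with ha
  have a0 : 0 < a := lt_of_lt_of_le (by positivity) hlow
  have hpig' : k / 4 * a ≤ ν (alt (N * k) (16 * k + 2)) := by
    have := h.append_le (alt (N * k) (16 * k + 2)) (alt (N * k) (16 * k + 2))
    rw [← alt_add, ← two_mul] at this
    linarith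
  set n := 2 * k with hn
  have hn1 : 1 ≤ n := by omega
  set r := 2 * n * n with hr
  have hr0 : 0 < r := by positivity
  have : Nonempty (Fin r) := ⟨⟨0, hr0⟩⟩
  set C : ℝ := 2 * Fintype.card (Fin m × Bool × Fin N) with hC
  have C0 : 0 ≤ C := by positivity
  obtain ⟨Y, _, _, L, _, _, ρ, ψ, Bad, hBad, hmono⟩ :=
    approx (pos : FreeGroup (Fin r) × II r m N → ℝ) pos_inj pos_inv n
      (min (1 / 2) (a ^ p / (C ^ p + 1))) (by positivity)
  have hG : Good (fun W : L →₀ ℝ => ν (wordOf W)) p K := h.goodW
  have key := markov_cocycle hG hp0 hK.le (fun s => ρ (of s))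
    (fun s y => blockF fun k : Fin m × Bool × Fin N => ψ (s, k) y) n hn1
  have word : ∀ y ∉ Bad, ∀ l : List (Fin r × Bool), l.length ≤ n →
      wordOf ((WW m N l).mapDomain fun a => ψ a.2 (ρ a.1⁻¹ y)) =
        wordOf ((WW m N l).mapDomain pos) := fun y hy l hl =>
    wordOf_map_eq _ pos pos_inj _ fun a b ha hb hab => by
      obtain ⟨-, l1, h1, h2⟩ := WW_ne l a ha
      obtain ⟨-, l2, h3, h4⟩ := WW_ne l b hb
      rw [h2, h4]
      exact hmono y hy l1 l2 _ _ (h1.trans hl) (h3.trans hl) (by rwa [← h2, ← h4])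
  have hY : (0 : ℝ) < Fintype.card Y := by positivity
  have lower : (Fintype.card Y : ℝ) / 2 * (((k / 4 * a) ^ p) * ((2 * r) ^ n / 2)) ≤
      ∑ y, lsum n fun l => ν (wordOf (cocV (fun s => ρ (of s))
        (fun s y => blockF fun k : Fin m × Bool × Fin N => ψ (s, k) y) l y)) ^ p := by
    refine le_trans ?_ (sum_le_sum_of_subset_of_nonneg (subset_univ (univ \ Bad))
      fun y _ _ => lsum_nonneg n fun l => Real.rpow_nonneg (h.nonneg _) _)
    refine le_trans ?_ (card_nsmul_le_sum _ _ (((k / 4 * a) ^ p) * ((2 * r) ^ n / 2))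
      fun y hy => ?_)
    · rw [nsmul_eq_mul, card_sdiff_of_subset (subset_univ _), card_univ,
        Nat.cast_sub (card_le_univ _)]
      refine mul_le_mul_of_nonneg_right ?_ (by positivity)
      have := mul_le_mul_of_nonneg_right (min_le_left (1 / 2) (a ^ p / (C ^ p + 1))) hY.le
      linarith
    · refine (mul_le_mul_of_nonneg_left (count_nodup' n hn1) (by positivity)).trans ?_
      rw [← lsum_mul]
      refine lsum_mono n fun l hl => ?_
      split_ifs with h1
      · rw [mul_one, coc_eq, word y (by simpa using hy) l hl.le]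
        exact Real.rpow_le_rpow (by positivity) (hpig'.trans (model_lower h k l h1 hl)) hp0.le
      · rw [mul_zero]
        exact Real.rpow_nonneg (h.nonneg _) _
  have upper : ∑ y, ∑ s, ν (wordOf (blockF fun k : Fin m × Bool × Fin N => ψ (s, k) y)) ^ p ≤
      2 * Fintype.card Y * r * a ^ p := by
    have h1 : ∀ y s, ν (wordOf (blockF fun k : Fin m × Bool × Fin N => ψ (s, k) y)) ^ p ≤
        a ^ p + if y ∈ Bad then C ^ p else 0 := fun y s => by
      split_ifs with hy
      · refine le_add_of_nonneg_of_le (by positivity)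
          (Real.rpow_le_rpow (h.nonneg _) ((hG.sum_le _ _).trans ?_) hp0.le)
        refine (sum_le_card_nsmul _ _ 2 fun k _ => ?_).trans (by simp [hC, mul_comm])
        rw [wordOf_single _ _ (by split_ifs <;> norm_num)]
        refine (h.upper _).trans ?_
        split_ifs <;> simp
      · have h2 := word y hy [(s, true)] hn1
        simp only [WW, Finsupp.mapDomain_zero, add_zero] at h2
        rw [model_step_word, bb, blockF_map] at h2
        simp only [← one_eq_mk, inv_one, map_one, Equiv.Perm.one_apply] at h2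
        rw [h2, add_zero]
    refine (sum_le_sum fun y _ => sum_le_sum fun s _ => h1 y s).trans ?_
    simp only [sum_const, card_univ, Fintype.card_fin, nsmul_eq_mul, ← mul_sum, sum_add_distrib,
      sum_ite_mem, univ_inter]
    have h2 := mul_le_mul_of_nonneg_right (min_le_right (1 / 2) (a ^ p / (C ^ p + 1))) hY.le
    have h3 : (0 : ℝ) ≤ C ^ p := by positivity
    have h4 : a ^ p / (C ^ p + 1) * Fintype.card Y * C ^ p ≤ a ^ p * Fintype.card Y := by
      rw [div_mul_eq_mul_div, div_mul_eq_mul_div, div_le_iff₀ (by positivity)]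
      have : (0 : ℝ) ≤ a ^ p * Fintype.card Y := by positivity
      nlinarith
    have h5 := mul_le_mul_of_nonneg_right (hBad.trans h2) h3
    have h6 : (0 : ℝ) ≤ r := by positivity
    nlinarith
  rw [Fintype.card_fin] at key
  have hr' : (0 : ℝ) < r := by positivity
  have k1 := (div_le_div_of_nonneg_right lower (show (0 : ℝ) ≤ (2 * r) ^ n by positivity)).trans
    (key.trans (mul_le_mul_of_nonneg_left (div_le_div_of_nonneg_right upper hr'.le)
      (by positivity)))
  have hk0 : (0 : ℝ) < k := by positivity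
  have e1 : ((k : ℝ) / 4 * a) ^ p = k ^ (p - 1) * k / 4 ^ p * a ^ p := by
    rw [Real.mul_rpow (by positivity) a0.le, Real.div_rpow hk0.le (by norm_num),
      Real.rpow_sub_one hk0.ne', div_mul_cancel₀ _ hk0.ne']
  rw [e1, hn] at k1
  push_cast at k1
  have ap : 0 < a ^ p := by positivity
  have f4 : (0 : ℝ) < 4 ^ p := by positivity
  field_simp at k1
  nlinarith

end Crest.Agent.MT
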