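import Crest.Agent.MT.Spread

set_option autoImplicit false

/-! Calculus of words for a spreading-invariant seminorm. -/

namespace Crest.Agent.MT

open Finset

variable {ν : List ℝ → ℝ} {θ p K : ℝ}

theorem Spread.filter (h : Spread ν θ p K) (l u : List ℝ) :
    ν (u ++ l.filter fun x => decide (x ≠ 0)) = ν (u ++ l) := by
  induction l generalizing u with
  | nil => rfl
  | cons x l ih =>
    by_cases hx : x = 0
    · subst hx
      rw [h.drop, List.filter_cons_of_neg (by simp), ih]
    · rw [List.filter_cons_of_pos (by simpa using hx)]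
      simpa using ih (u ++ [x])

theorem Spread.zeros (h : Spread ν θ p K) (u v z : List ℝ) (hz : ∀ x ∈ z, x = 0) :
    ν (u ++ z ++ v) = ν (u ++ v) := by
  induction z with
  | nil => simp
  | cons x z ih =>
    rw [hz x (by simp), List.append_assoc, List.cons_append, h.drop, ← List.append_assoc]
    exact ih fun y hy => hz y (by simp [hy])

theorem Spread.good2 (h : Spread ν θ p K) (u v : List ℝ) :
    Good (fun a : ℝ × ℝ => ν (u.map (· * a.1) ++ v.map (· * a.2))) p K := by
  have := h.good (ℝ × ℝ) (u.map (· • LinearMap.fst ℝ ℝ ℝ) ++ v.map (· • LinearMap.snd ℝ ℝ ℝ))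
  simpa [Function.comp_def] using this

theorem Spread.nonneg (h : Spread ν θ p K) (l : List ℝ) : 0 ≤ ν l := by
  simpa using (h.good2 l []).nonneg (1, 1)

theorem Spread.map_neg (h : Spread ν θ p K) (l : List ℝ) : ν (l.map fun x => -x) = ν l := by
  simpa using (h.good2 l []).neg (1, 1)

theorem Spread.append_le (h : Spread ν θ p K) (u v : List ℝ) : ν (u ++ v) ≤ ν u + ν v := by
  have h1 := (h.good2 u v).add (1, 0) (0, 1)
  have h2 := h.zeros u [] (v.map (· * (0 : ℝ))) (by simp)
  have h3 := h.zeros [] v (u.map (· * (0 : ℝ))) (by simp)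
  simp only [List.append_nil, List.nil_append] at h2 h3
  simp only [Prod.mk_add_mk, add_zero, zero_add, mul_one, List.map_id'] at h1
  rwa [h2, h3] at h1

theorem Spread.remove (h : Spread ν θ p K) (a b : List ℝ) (c : ℝ) :
    ν (a ++ b) ≤ ν (a ++ c :: -c :: b) := by
  have hg : Good (fun z : Fin 4 → ℝ =>
      ν (a.map (· * z 0) ++ z 1 :: z 2 :: z 3 :: b.map (· * z 0))) p K := by
    let pr : Fin 4 → ((Fin 4 → ℝ) →ₗ[ℝ] ℝ) := fun i => LinearMap.proj i
    have := h.good (Fin 4 → ℝ) (a.map (· • pr 0) ++ pr 1 :: pr 2 :: pr 3 :: b.map (· • pr 0))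
    simpa [Function.comp_def, pr] using this
  set F : ℝ → ℝ := fun x => ν (a.map (· * x) ++ c :: -c :: b.map (· * x)) with hF
  have h1 : ∀ x, F (x + 1) ≤ F x + F 1 := fun x => by
    have h2 := hg.add ![x, c, -c, 0] ![1, 0, c, -c]
    have h3 := h.drop (a.map (· * (x + 1)) ++ [c]) (-c :: b.map (· * (x + 1)))
    have h4 := h.drop (a.map (· * x) ++ [c, -c]) (b.map (· * x))
    have h5 := h.drop (a.map (· * (1 : ℝ))) (c :: -c :: b.map (· * (1 : ℝ)))
    simp only [List.append_assoc, List.cons_append, List.nil_append] at h3 h4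
    simp only [Pi.add_apply, Matrix.cons_val_zero, Matrix.cons_val_one, Matrix.cons_val,
      add_zero, zero_add, neg_add_cancel] at h2
    rw [h3, h4, h5] at h2
    exact h2
  have h2 : ∀ n : ℕ, F (n + 1) ≤ (n + 1) * F 1 := fun n => by
    induction n with
    | zero => simp
    | succ n ih =>
      have := h1 (n + 1)
      push_cast
      linarith
  have h3 : ∀ n : ℕ, (n + 1 : ℝ) * ν (a ++ b) ≤ F (n + 1) + 4 * |c| := fun n => by
    have h4 := hg.add ![n + 1, c, -c, 0] ![0, -c, c, 0]
    have h5 := hg.smul (n + 1) ![1, 0, 0, 0]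
    have h6 := h.drop (a.map (· * ((n : ℝ) + 1)) ++ [c, -c]) (b.map (· * ((n : ℝ) + 1)))
    have h7 := h.zeros a b [0, 0, 0] (by simp)
    have h8 := h.upper (a.map (· * (0 : ℝ)) ++ -c :: c :: 0 :: b.map (· * (0 : ℝ)))
    simp only [List.append_assoc, List.cons_append, List.nil_append] at h6 h7
    simp only [Pi.add_apply, Matrix.cons_val_zero, Matrix.cons_val_one, Matrix.cons_val,
      add_zero, add_neg_cancel, neg_add_cancel] at h4
    simp only [Pi.smul_apply, Matrix.cons_val_zero, Matrix.cons_val_one, Matrix.cons_val,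
      smul_eq_mul, mul_one, mul_zero, List.map_id', h7] at h5
    rw [h5, h6, abs_of_nonneg (by positivity)] at h4
    simp only [mul_zero, List.map_append, List.map_cons, List.map_replicate,
      abs_zero, abs_neg, List.sum_append, List.sum_cons, List.map_const', List.sum_replicate,
      smul_zero] at h8
    simp only [mul_zero, List.map_const'] at h4
    simp only [hF]
    linarith
  have h4 : F 1 = ν (a ++ c :: -c :: b) := by simp [hF]
  rw [← h4]
  by_contra hlt
  rw [not_le] at hlt
  obtain ⟨n, hn⟩ := exists_nat_gt (4 * |c| / (ν (a ++ b) - F 1))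
  rw [div_lt_iff₀ (by linarith)] at hn
  have := h2 n
  have := h3 n
  nlinarith

/-- Domination of words in every context. -/
def Le (ν : List ℝ → ℝ) (u v : List ℝ) : Prop := ∀ a b, ν (a ++ u ++ b) ≤ ν (a ++ v ++ b)

theorem Le.refl (u : List ℝ) : Le ν u u := fun _ _ => le_rfl
theorem Le.trans {u v w : List ℝ} (h : Le ν u v) (h' : Le ν v w) : Le ν u w :=
  fun a b => (h a b).trans (h' a b)
theorem Le.left {u v : List ℝ} (h : Le ν u v) (c : List ℝ) : Le ν (c ++ u) (c ++ v) :=
  fun a b => by simpa using h (a ++ c) b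
theorem Le.right {u v : List ℝ} (h : Le ν u v) (c : List ℝ) : Le ν (u ++ c) (v ++ c) :=
  fun a b => by simpa using h a (c ++ b)
theorem Le.le {u v : List ℝ} (h : Le ν u v) : ν u ≤ ν v := by simpa using h [] []

/-- The word of constant sign with a given sum. -/
def pure (z : ℤ) : List ℝ := List.replicate z.toNat 1 ++ List.replicate (-z).toNat (-1)

/-- Words in `1` and `-1`. -/
def Sgn (l : List ℝ) : Prop := ∀ x ∈ l, x = 1 ∨ x = -1

theorem Sgn.append {u v : List ℝ} (hu : Sgn u) (hv : Sgn v) : Sgn (u ++ v) := fun x hx => by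
  rcases List.mem_append.1 hx with h | h
  exacts [hu x h, hv x h]

theorem Sgn.of_append {u v : List ℝ} (h : Sgn (u ++ v)) : Sgn v := fun x hx =>
  h x (List.mem_append_right _ hx)

theorem sgn_pure (z : ℤ) : Sgn (pure z) := fun x hx => by
  rcases List.mem_append.1 hx with h | h
  · exact Or.inl (List.eq_of_mem_replicate h)
  · exact Or.inr (List.eq_of_mem_replicate h)

theorem sum_pure (z : ℤ) : (pure z).sum = z := by
  simp only [pure, List.sum_append, List.sum_replicate, nsmul_eq_mul, mul_one, mul_neg]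
  have h2 : (z.toNat : ℤ) + -((-z).toNat : ℤ) = z := by omega
  exact_mod_cast h2

theorem pure_nat (n : ℕ) : pure n = List.replicate n 1 := by simp [pure]
theorem pure_neg (n : ℕ) : pure (-n) = List.replicate n (-1) := by simp [pure]

theorem Spread.red (h : Spread ν θ p K) (l : List ℝ) (hl : Sgn l) (z : ℤ) (hz : l.sum = z) :
    Le ν (pure z) l := by
  induction l generalizing z with
  | nil =>
    have : z = 0 := by
      rw [List.sum_nil] at hz
      exact_mod_cast hz.symm
    subst this
    exact Le.refl _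
  | cons x l ih =>
    have hl' : Sgn l := fun y hy => hl y (by simp [hy])
    rw [List.sum_cons] at hz
    rcases hl x (by simp) with rfl | rfl
    · refine Le.trans ?_ ((ih hl' (z - 1) (by push_cast; linarith)).left [1])
      rcases le_or_gt 1 z with h1 | h1
      · obtain ⟨n, rfl⟩ : ∃ n : ℕ, z = (n + 1 : ℕ) := ⟨(z - 1).toNat, by omega⟩
        rw [show ((n + 1 : ℕ) : ℤ) - 1 = n by omega, pure_nat, pure_nat]
        exact Le.refl _
      · obtain ⟨n, rfl⟩ : ∃ n : ℕ, z = -n := ⟨(-z).toNat, by omega⟩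
        rw [show (-n : ℤ) - 1 = -(n + 1 : ℕ) by omega, pure_neg, pure_neg]
        intro a b
        simpa [List.replicate_succ] using h.remove a (List.replicate n (-1) ++ b) 1
    · refine Le.trans ?_ ((ih hl' (z + 1) (by push_cast; linarith)).left [-1])
      rcases le_or_gt z (-1) with h1 | h1
      · obtain ⟨n, rfl⟩ : ∃ n : ℕ, z = -(n + 1 : ℕ) := ⟨(-z - 1).toNat, by omega⟩
        rw [show -((n + 1 : ℕ) : ℤ) + 1 = -n by omega, pure_neg, pure_neg]
        exact Le.refl _
      · obtain ⟨n, rfl⟩ : ∃ n : ℕ, z = n := ⟨z.toNat, by omega⟩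
        rw [show (n : ℤ) + 1 = (n + 1 : ℕ) by omega, pure_nat, pure_nat]
        intro a b
        simpa [List.replicate_succ] using h.remove a (List.replicate n 1 ++ b) (-1)

/-- `H` ones followed by `H` minus ones. -/
def blk (H : ℕ) : List ℝ := List.replicate H 1 ++ List.replicate H (-1)

/-- `m` copies of `blk H`. -/
def alt (H : ℕ) : ℕ → List ℝ
  | 0 => []
  | m + 1 => alt H m ++ blk H

theorem Spread.threshold (h : Spread ν θ p K) (H : ℕ) (u : ℕ → List ℝ) (g : ℕ → ℤ)
    (M : ℕ) (hu : ∀ n, ∃ s, u (n + 1) = u n ++ s) (hs : ∀ n, Sgn (u n))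
    (hg : ∀ n, (u n).sum = g n) (h0 : ∀ j ≤ M, g (2 * j) ≤ 0)
    (h1 : ∀ j < M, (H : ℤ) ≤ g (2 * j + 1)) :
    Le ν (alt H M ++ pure (g (2 * M))) (u (2 * M)) := by
  induction M with
  | zero => exact h.red _ (hs _) _ (hg _)
  | succ M ih =>
    have ih := ih (fun j hj => h0 j (by omega)) fun j hj => h1 j (by omega)
    obtain ⟨s1, e1⟩ := hu (2 * M)
    obtain ⟨s2, e2⟩ := hu (2 * M + 1)
    have t1 : Sgn s1 := (e1 ▸ hs (2 * M + 1)).of_append
    have t2 : Sgn s2 := (e2 ▸ hs (2 * M + 1 + 1)).of_append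
    have g0 := hg (2 * M)
    have g1 := hg (2 * M + 1)
    have g2 := hg (2 * M + 1 + 1)
    rw [e2, List.sum_append, g1] at g2
    rw [e1, List.sum_append, g0] at g1
    obtain ⟨k, hk⟩ : ∃ k : ℕ, g (2 * M + 1) = (H + k : ℕ) :=
      ⟨(g (2 * M + 1) - H).toNat, by have := h1 M (by omega); omega⟩
    obtain ⟨k', hk'⟩ : ∃ k : ℕ, g (2 * M + 1 + 1) = -k :=
      ⟨(-g (2 * M + 1 + 1)).toNat, by
        have := h0 (M + 1) le_rfl
        rw [show 2 * (M + 1) = 2 * M + 1 + 1 by ring] at this
        omega⟩
    have a1 := h.red _ ((sgn_pure (g (2 * M))).append t1) (g (2 * M + 1))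
      (by rw [List.sum_append, sum_pure, g1])
    have a2 := h.red _ ((sgn_pure k).append t2) (-(H + k' : ℕ)) (by
      rw [List.sum_append, sum_pure]
      rw [hk, hk'] at g2
      push_cast at g2 ⊢
      linarith)
    rw [hk, pure_nat, List.replicate_add] at a1
    rw [pure_neg, pure_nat, List.replicate_add] at a2
    rw [show 2 * (M + 1) = 2 * M + 1 + 1 by ring, e2, e1, hk', pure_neg]
    have b1 := (a2.left (List.replicate H 1)).left (alt H M)
    have b2 := (a1.right s2).left (alt H M)
    have b3 := (ih.right s1).right s2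
    simp only [alt, blk, List.append_assoc] at b1 b2 b3 ⊢
    exact (b1.trans b2).trans b3

theorem alt_add (H m m' : ℕ) : alt H (m + m') = alt H m ++ alt H m' := by
  induction m' with
  | zero => simp [alt]
  | succ m' ih => rw [← add_assoc, alt, ih, alt, List.append_assoc]

theorem sgn_alt (H m : ℕ) : Sgn (alt H m) := by
  induction m with
  | zero => intro x hx; simp [alt] at hx
  | succ m ih =>
    refine ih.append (Sgn.append ?_ ?_)
    · exact fun x hx => Or.inl (List.eq_of_mem_replicate hx)
    · exact fun x hx => Or.inr (List.eq_of_mem_replicate hx)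

theorem Spread.alt_lower (h : Spread ν θ p K) (H m : ℕ) : θ * H ≤ ν (alt H (m + 1)) := by
  have := h.lower (alt H m ++ List.replicate H 1) (List.replicate H (-1))
  simpa [alt, blk] using this

theorem Spread.alt_upper (h : Spread ν θ p K) (H m : ℕ) : ν (alt H m) ≤ 4 * H * m := by
  refine (h.upper _).trans (le_of_eq ?_)
  induction m with
  | zero => simp [alt]
  | succ m ih =>
    simp only [alt, blk, List.map_append, List.sum_append, List.map_replicate, abs_one, abs_neg,
      List.sum_replicate, nsmul_eq_mul, mul_one]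
    push_cast
    linarith

theorem Spread.pigeon (h : Spread ν θ p K) (hθ : 0 < θ) (k m : ℕ) (hk : 1 ≤ k) :
    ∃ N : ℕ, 1 ≤ N ∧ k / 2 * ν (alt N (m + 1)) ≤ ν (alt (N * k) (m + 1)) := by
  by_contra hc
  push Not at hc
  have h1 : ∀ i : ℕ, ν (alt (k ^ i) (m + 1)) ≤ (k / 2) ^ i * (4 * (m + 1)) := fun i => by
    induction i with
    | zero => simpa using h.alt_upper 1 (m + 1)
    | succ i ih =>
      have := hc (k ^ i) (Nat.one_le_pow _ _ hk)
      rw [pow_succ, pow_succ]
      have h2 := mul_le_mul_of_nonneg_left ih (show (0 : ℝ) ≤ k / 2 by positivity)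
      linarith
  obtain ⟨i, hi⟩ := pow_unbounded_of_one_lt (4 * (m + 1) / θ) (show (1 : ℝ) < 2 by norm_num)
  have h2 := (h.alt_lower (k ^ i) m).trans (h1 i)
  rw [div_lt_iff₀ hθ] at hi
  rw [div_pow, div_mul_eq_mul_div, le_div_iff₀ (by positivity)] at h2
  push_cast at h2
  have : (0 : ℝ) < (k : ℝ) ^ i := by positivity
  nlinarith

/-! ### Words of finitely supported functions -/

section
variable {α β : Type} [LinearOrder α] [LinearOrder β]

/-- The values of a finitely supported function, listed along its support. -/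
noncomputable def wordOf (W : α →₀ ℝ) : List ℝ := (W.support.sort (· ≤ ·)).map W

theorem pairwise_supp (W : α →₀ ℝ) : (W.support.sort (· ≤ ·)).Pairwise (· < ·) :=
  (sortedLT_sort _).pairwise

theorem wordOf_eq (W : α →₀ ℝ) (s : List α) (hs : s.Pairwise (· < ·))
    (hm : ∀ a, a ∈ s ↔ W a ≠ 0) : wordOf W = s.map W := by
  rw [wordOf, (pairwise_supp W).eq_of_mem_iff hs fun a => by simp [hm]]

theorem Spread.map_eq (h : Spread ν θ p K) (W : α →₀ ℝ) (s : List α) (hs : s.Pairwise (· < ·))
    (hm : ∀ a, W a ≠ 0 → a ∈ s) : ν (s.map W) = ν (wordOf W) := by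
  rw [wordOf_eq W (s.filter fun a => decide (W a ≠ 0)) (hs.filter _) fun a => by
    simpa using hm a]
  have := h.filter (s.map W) []
  rw [List.filter_map] at this
  exact this.symm

theorem Spread.goodW (h : Spread ν θ p K) [Fintype α] :
    Good (fun W : α →₀ ℝ => ν (wordOf W)) p K := by
  have := h.good (α →₀ ℝ) (((univ : Finset α).sort (· ≤ ·)).map Finsupp.lapply)
  convert this using 2 with W
  rw [← h.map_eq W _ (sortedLT_sort univ).pairwise (by simp)]
  simp [Function.comp_def]

theorem wordOf_add (W W' : α →₀ ℝ) (h : ∀ a b, W a ≠ 0 → W' b ≠ 0 → a < b) :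
    wordOf (W + W') = wordOf W ++ wordOf W' := by
  have hd : ∀ a, W a ≠ 0 → W' a = 0 := fun a ha => by
    by_contra hb
    exact lt_irrefl _ (h a a ha hb)
  rw [wordOf_eq (W + W') (W.support.sort (· ≤ ·) ++ W'.support.sort (· ≤ ·))
    (List.pairwise_append.2 ⟨pairwise_supp _, pairwise_supp _, by simpa using fun a ha b => h a b ha⟩)
    fun a => by
      by_cases ha : W a = 0
      · simp [ha]
      · simp [ha, hd a ha], List.map_append, wordOf, wordOf]
  congr 1
  · refine List.map_congr_left fun a ha => ?_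
    simp [hd a (by simpa using ha)]
  · refine List.map_congr_left fun a ha => ?_
    have : W a = 0 := by
      by_contra h'
      exact (by simpa using ha : W' a ≠ 0) (hd a h')
    simp [this]

theorem wordOf_single (a : α) (c : ℝ) (hc : c ≠ 0) : wordOf (Finsupp.single a c) = [c] := by
  simp [wordOf, Finsupp.support_single _ hc]

theorem wordOf_zero : wordOf (0 : α →₀ ℝ) = [] := by simp [wordOf]

theorem wordOf_neg (W : α →₀ ℝ) : wordOf (-W) = (wordOf W).map fun x => -x := by
  simp [wordOf, Function.comp_def]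

theorem sum_wordOf (W : α →₀ ℝ) : (wordOf W).sum = W.sum fun _ x => x := by
  rw [wordOf, Finsupp.sum, ← Finset.sum_map_toList,
    ((sort_perm_toList W.support (· ≤ ·)).map W).sum_eq]

theorem sgn_wordOf (W : α →₀ ℝ) (h : ∀ a, W a = 0 ∨ W a = 1 ∨ W a = -1) : Sgn (wordOf W) := by
  intro x hx
  obtain ⟨a, ha, rfl⟩ := List.mem_map.1 hx
  exact (h a).resolve_left (by simpa using ha)

theorem wordOf_mapDomain (W : α →₀ ℝ) (φ : α → β)
    (h : ∀ a b, W a ≠ 0 → W b ≠ 0 → a < b → φ a < φ b) :
    wordOf (W.mapDomain φ) = wordOf W := by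
  have hinj : Set.InjOn φ W.support := fun a ha b hb hab => by
    rcases lt_trichotomy a b with h1 | h1 | h1
    · exact absurd hab (h a b (by simpa using ha) (by simpa using hb) h1).ne
    · exact h1
    · exact absurd hab (h b a (by simpa using hb) (by simpa using ha) h1).ne'
  rw [wordOf_eq _ ((W.support.sort (· ≤ ·)).map φ), List.map_map, wordOf]
  · refine List.map_congr_left fun a ha => ?_
    exact Finsupp.mapDomain_apply' (W.support : Set α) W subset_rfl hinj (by simpa using ha)
  · rw [List.pairwise_map]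
    exact (pairwise_supp W).imp_of_mem fun ha hb hab =>
      h _ _ (by simpa using ha) (by simpa using hb) hab
  · intro b
    rw [← Finsupp.mem_support_iff, Finsupp.mapDomain_support_of_injOn _ hinj]
    simp

open Classical in
theorem Spread.thresholdW (h : Spread ν θ p K) (H M : ℕ) (W : α →₀ ℝ)
    (hW : ∀ a, W a = 0 ∨ W a = 1 ∨ W a = -1) (hsum : (W.sum fun _ x => x) = 0)
    (D : ℕ → α → Prop) (hD : ∀ n a b, D n a → ¬ D n b → a < b) (hD' : ∀ n a, D n a → D (n + 1) a)
    (g : ℕ → ℤ) (hg : ∀ n, ((W.filter (D n)).sum fun _ x => x) = g n)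
    (h0 : ∀ j ≤ M, g (2 * j) ≤ 0) (h1 : ∀ j < M, (H : ℤ) ≤ g (2 * j + 1)) :
    ν (alt H M) ≤ ν (wordOf W) := by
  have split : ∀ (W : α →₀ ℝ) n, wordOf W =
      wordOf (W.filter (D n)) ++ wordOf (W.filter fun a => ¬ D n a) := fun W n => by
    rw [← wordOf_add, Finsupp.filter_add_filter_not]
    intro a b ha hb
    refine hD n a b ?_ ?_
    · by_contra h'; exact ha (Finsupp.filter_apply_neg _ _ h')
    · intro h'; exact hb (Finsupp.filter_apply_neg _ _ (not_not.2 h'))
  have key := h.threshold H (fun n => wordOf (W.filter (D n))) g M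
    (fun n => ⟨_, by
      have := split (W.filter (D (n + 1))) n
      have e : (W.filter (D (n + 1))).filter (D n) = W.filter (D n) := by
        ext a
        by_cases ha : D n a <;> simp [ha, hD' n a]
      rwa [e] at this⟩)
    (fun n => sgn_wordOf _ fun a => by
      by_cases ha : D n a
      · simpa [Finsupp.filter_apply, ha] using hW a
      · simp [ha])
    (fun n => by rw [sum_wordOf, hg]) h0 h1
  have e := split W (2 * M)
  have s1 : Sgn (wordOf (W.filter fun a => ¬ D (2 * M) a)) := (e ▸ sgn_wordOf W hW).of_append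
  have s2 := h.red _ ((sgn_pure (g (2 * M))).append s1) 0 (by
    have := sum_wordOf W
    rw [e, List.sum_append, sum_wordOf, hg, hsum] at this
    rw [List.sum_append, sum_pure, this, Int.cast_zero])
  have b1 := s2.left (alt H M)
  have b2 := key.right (wordOf (W.filter fun a => ¬ D (2 * M) a))
  rw [← e] at b2
  simp only [pure, Int.toNat_zero, List.replicate_zero, neg_zero, List.append_nil] at b1
  simp only [pure, List.append_assoc] at b1 b2
  exact (b1.trans b2).le

end

end Crest.Agent.MT
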