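import Crest.Agent.MT.Act
import Crest.Agent.MT.Words

set_option autoImplicit false

/-! The Busemann cocycle of the ping-pong action and its alternations. -/

namespace Crest.Agent.MT

open Finset
open FreeGroup hiding map_mul map_inv map_one

section block
variable {α β : Type} {m N : ℕ}

/-- `m` blocks of `N` positive and `N` negative unit masses. -/
noncomputable def blockF (e : Fin m × Bool × Fin N → α) : α →₀ ℝ :=
  ∑ k, Finsupp.single (e k) (if k.2.1 then -1 else 1)

theorem blockF_map (φ : α → β) (e : Fin m × Bool × Fin N → α) :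
    (blockF e).mapDomain φ = blockF fun k => φ (e k) := by
  simp [blockF, Finsupp.mapDomain_finsetSum, Finsupp.mapDomain_single]

theorem sum_single_ne {ι : Type} [Fintype ι] (e : ι → α) (x : ι → ℝ) (a : α)
    (h : (∑ k, Finsupp.single (e k) (x k)) a ≠ 0) : ∃ k, a = e k := by
  classical
  by_contra hc
  push Not at hc
  apply h
  rw [Finsupp.finsetSum_apply]
  exact sum_eq_zero fun k _ => Finsupp.single_eq_of_ne (hc k)

theorem blockF_ne (e : Fin m × Bool × Fin N → α) (a : α) (h : blockF e a ≠ 0) : ∃ k, a = e k :=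
  sum_single_ne e _ a h

theorem blockF_val (e : Fin m × Bool × Fin N → α) (he : Function.Injective e) (a : α) :
    blockF e a = 0 ∨ blockF e a = 1 ∨ blockF e a = -1 := by
  by_cases h : blockF e a = 0
  · exact Or.inl h
  · obtain ⟨k, rfl⟩ := blockF_ne e a h
    right
    rw [blockF, Finsupp.finsetSum_apply, sum_eq_single k
      (fun b _ hb => Finsupp.single_eq_of_ne (he.ne hb.symm)) (by simp), Finsupp.single_eq_same]
    split_ifs <;> simp

theorem wordOf_const [LinearOrder α] (x : ℝ) (hx : x ≠ 0) : ∀ (N : ℕ) (e : Fin N → α),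
    StrictMono e → wordOf (∑ c, Finsupp.single (e c) x) = List.replicate N x
  | 0, e, _ => by simp [wordOf_zero]
  | N + 1, e, he => by
    rw [Fin.sum_univ_castSucc, wordOf_add, wordOf_single _ _ hx, wordOf_const x hx N
      (fun i => e i.castSucc) (he.comp Fin.strictMono_castSucc), List.replicate_succ']
    intro a b ha hb
    obtain ⟨k, rfl⟩ := sum_single_ne _ _ a ha
    obtain rfl : b = e (Fin.last N) := by
      by_contra h; exact hb (Finsupp.single_eq_of_ne h)
    exact he (Fin.castSucc_lt_last k)

theorem wordOf_blockF [LinearOrder α] : ∀ (m : ℕ) (e : Fin m × Bool × Fin N → α),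
    (∀ j b c c', c < c' → e (j, b, c) < e (j, b, c')) →
    (∀ j c c', e (j, false, c) < e (j, true, c')) →
    (∀ j j' k k', j < j' → e (j, k) < e (j', k')) → wordOf (blockF e) = alt N m
  | 0, e, _, _, _ => by simp [blockF, wordOf_zero, alt]
  | m + 1, e, h1, h2, h3 => by
    have ih := wordOf_blockF m (fun k => e (k.1.castSucc, k.2)) (fun j => h1 j.castSucc)
      (fun j => h2 j.castSucc)
      fun j j' k k' h => h3 _ _ _ _ (Fin.castSucc_lt_castSucc_iff.2 h)
    have e1 : blockF e = blockF (fun k : Fin m × Bool × Fin N => e (k.1.castSucc, k.2)) +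
        ∑ k : Bool × Fin N, Finsupp.single (e (Fin.last m, k)) (if k.1 then -1 else 1) := by
      simp only [blockF, Fintype.sum_prod_type (α₁ := Fin _), Fin.sum_univ_castSucc]
    rw [e1, wordOf_add, ih, alt, Fintype.sum_prod_type, Fintype.sum_bool, add_comm, wordOf_add]
    · simp only [if_true, Bool.false_eq_true, if_false]
      rw [wordOf_const 1 one_ne_zero N _ (h1 _ false), wordOf_const (-1) (by norm_num) N _
        (h1 _ true), blk]
    · intro a b ha hb
      obtain ⟨k, rfl⟩ := sum_single_ne _ _ a ha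
      obtain ⟨k', rfl⟩ := sum_single_ne _ _ b hb
      exact h2 _ _ _
    · intro a b ha hb
      obtain ⟨k, rfl⟩ := blockF_ne _ a ha
      obtain ⟨k', rfl⟩ := sum_single_ne _ _ b hb
      exact h3 _ _ _ _ (Fin.castSucc_lt_last _)

open Classical in
/-- The mass of a set. -/
noncomputable def fsum (D : α → Prop) : (α →₀ ℝ) →ₗ[ℝ] ℝ :=
  Finsupp.linearCombination ℝ fun a => if D a then 1 else 0

open Classical in
theorem filter_sum (D : α → Prop) (W : α →₀ ℝ) : ((W.filter D).sum fun _ x => x) = fsum D W := by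
  rw [fsum, Finsupp.linearCombination_apply, Finsupp.sum_filter_index, Finsupp.support_filter,
    sum_filter, Finsupp.sum]
  exact sum_congr rfl fun a _ => by simp

theorem total_sum (W : α →₀ ℝ) : (W.sum fun _ x => x) = fsum (fun _ => True) W := by
  simp [fsum, Finsupp.linearCombination_apply]

theorem fsum_map (D : β → Prop) (φ : α → β) (W : α →₀ ℝ) :
    fsum D (W.mapDomain φ) = fsum (fun a => D (φ a)) W := by
  rw [fsum, Finsupp.linearCombination_mapDomain]; rfl

open Classical in
theorem fsum_blockF (D : α → Prop) (e : Fin m × Bool × Fin N → α) : fsum D (blockF e) =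
    ∑ j, ∑ c, ((if D (e (j, false, c)) then 1 else 0) - (if D (e (j, true, c)) then 1 else 0)) := by
  simp only [blockF, map_sum, fsum, Fintype.sum_prod_type,
    Fintype.sum_bool, ← sum_add_distrib]
  refine sum_congr rfl fun j _ => sum_congr rfl fun c _ => ?_
  simp only [if_true, Bool.false_eq_true, if_false, smul_eq_mul, map_add,
    Finsupp.linearCombination_single]
  ring

theorem wordOf_map_eq [LinearOrder β] (W : α →₀ ℝ) (pos : α → ℝ) (hinj : Function.Injective pos)
    (φ : α → β) (h : ∀ a b, W a ≠ 0 → W b ≠ 0 → pos a < pos b → φ a < φ b) :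
    wordOf (W.mapDomain φ) = wordOf (W.mapDomain pos) := by
  let : LinearOrder α := LinearOrder.lift' pos hinj
  rw [wordOf_mapDomain W φ h, wordOf_mapDomain W pos fun a b _ _ h => h]

end block

variable {r m N : ℕ}

/-- The index set of the marked points. -/
abbrev II (r m N : ℕ) := Fin r × Fin m × Bool × Fin N

/-- The offset of a marked point. -/
noncomputable def off (k : Bool × Fin N) : ℝ :=
  if k.1 then 1 + (k.2 + 1) / (2 * N) else -1 / 2 + k.2 / (2 * N)

theorem off_false (c : Fin N) : -1 / 2 ≤ off (false, c) ∧ off (false, c) < 0 := by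
  have h1 : (c : ℝ) < N := by exact_mod_cast c.2
  have h2 : (0 : ℝ) ≤ c := by positivity
  have h3 : (c : ℝ) / (2 * N) < 1 / 2 := by
    rw [div_lt_iff₀ (by linarith)]; linarith
  have h4 : 0 ≤ (c : ℝ) / (2 * N) := by positivity
  simp only [off, Bool.false_eq_true, if_false]
  constructor <;> linarith

theorem off_true (c : Fin N) : 1 < off (true, c) ∧ off (true, c) ≤ 3 / 2 := by
  have h1 : (c : ℝ) + 1 ≤ N := by exact_mod_cast c.2
  have h2 : (0 : ℝ) ≤ c := by positivity
  have h3 : ((c : ℝ) + 1) / (2 * N) ≤ 1 / 2 := by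
    rw [div_le_iff₀ (by linarith)]; linarith
  have h4 : 0 < ((c : ℝ) + 1) / (2 * N) := div_pos (by linarith) (by linarith)
  simp only [off, if_true]
  constructor <;> linarith

theorem off_bd (k : Bool × Fin N) : -1 / 2 ≤ off k ∧ off k ≤ 3 / 2 := by
  rcases k with ⟨_ | _, c⟩
  · have := off_false c; constructor <;> linarith
  · have := off_true c; constructor <;> linarith

theorem off_mono (b : Bool) (c c' : Fin N) (h : c < c') : off (b, c) < off (b, c') := by
  have h1 : (c : ℝ) < c' := by exact_mod_cast h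
  have h2 : (c : ℝ) < N := by exact_mod_cast c.2
  have h3 : (0 : ℝ) ≤ c := by positivity
  have h4 : (0 : ℝ) < 2 * N := by linarith
  have h5 := div_lt_div_of_pos_right h1 h4
  have h6 := div_lt_div_of_pos_right (show (c : ℝ) + 1 < c' + 1 by linarith) h4
  simp only [off]
  split_ifs <;> linarith

/-- The marked points. -/
noncomputable def xp (i : II r m N) : ℝ := cc (i.1, true) + per r * i.2.1 + off i.2.2

theorem xp_zone (i : II r m N) : Zone r (idx (i.1, true)) (xp i) := by
  have := off_bd i.2.2
  refine ⟨i.2.1, ?_, ?_⟩ <;> simp only [xp, cc] <;> push_cast <;> linarith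

theorem xp_out (i : II r m N) (t : Fin r × Bool) : Out t (xp i) := by
  by_cases h : (i.1, true) = t
  · subst h
    have hP := per_ge r
    obtain ⟨s, j, _ | _, c⟩ := i
    · have := off_false c
      refine ⟨j - 1, ?_, ?_⟩ <;> simp only [xp] <;> push_cast <;> linarith
    · have := off_true c
      refine ⟨j, ?_, ?_⟩ <;> simp only [xp] <;> push_cast <;> linarith
  · exact ((xp_zone i).far (idx_lt _).le fun h' => h (idx_inj h')).out

theorem xp_lt1 (s : Fin r) (j : Fin m) (b : Bool) (c c' : Fin N) (h : c < c') :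
    xp (s, j, b, c) < xp (s, j, b, c') := by
  have := off_mono b c c' h
  simp only [xp]; linarith

theorem xp_lt2 (s : Fin r) (j : Fin m) (c c' : Fin N) :
    xp (s, j, false, c) < xp (s, j, true, c') := by
  have := off_false c
  have := off_true c'
  simp only [xp]; linarith

theorem xp_lt3 (s : Fin r) (j j' : Fin m) (k k' : Bool × Fin N) (h : j < j') :
    xp (s, j, k) < xp (s, j', k') := by
  have := off_bd k
  have := off_bd k'
  have h1 : (j : ℝ) + 1 ≤ j' := by exact_mod_cast h
  have := per_ge r
  simp only [xp]; nlinarith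

theorem xp_inj : Function.Injective (xp : II r m N → ℝ) := by
  rintro ⟨s, j, b, c⟩ ⟨s', j', b', c'⟩ h
  obtain rfl : s = s' := by
    by_contra hs
    have h1 := (xp_zone (s, j, b, c)).far (t := (s', true)) (idx_lt _).le
      fun h' => hs (congrArg Prod.fst (idx_inj h'))
    obtain ⟨n, h2, h3⟩ := h1
    rw [h, xp] at h2 h3
    have := off_bd (b', c')
    have := per_ge r
    have h5 : (n : ℝ) < j' := by nlinarith
    have h6 : (j' : ℝ) < n + 1 := by nlinarith
    have h7 : n < j' := by exact_mod_cast h5
    have h8 : (j' : ℤ) < n + 1 := by exact_mod_cast h6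
    omega
  obtain rfl : j = j' := by
    rcases lt_trichotomy j j' with h1 | h1 | h1
    · exact absurd h (xp_lt3 _ _ _ _ _ h1).ne
    · exact h1
    · exact absurd h (xp_lt3 _ _ _ _ _ h1).ne'
  obtain rfl : b = b' := by
    rcases b with _ | _ <;> rcases b' with _ | _
    · rfl
    · exact absurd h (xp_lt2 _ _ _ _).ne
    · exact absurd h (xp_lt2 _ _ _ _).ne'
    · rfl
  obtain rfl : c = c' := by
    rcases lt_trichotomy c c' with h1 | h1 | h1
    · exact absurd h (xp_lt1 _ _ _ _ _ h1).ne
    · exact h1
    · exact absurd h (xp_lt1 _ _ _ _ _ h1).ne'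
  rfl

/-- The position of a translate of a marked point. -/
noncomputable def pos (a : FreeGroup (Fin r) × II r m N) : ℝ := AA r a.1 (xp a.2)

theorem pos_sm (g : FreeGroup (Fin r)) (a : FreeGroup (Fin r) × II r m N) :
    pos (sm g a) = AA r g (pos a) := by simp [pos]

theorem pos_inv (g : FreeGroup (Fin r)) (a b : FreeGroup (Fin r) × II r m N) (h : pos a < pos b) :
    pos (sm g a) < pos (sm g b) := by
  rw [pos_sm, pos_sm]; exact AA_mono g h

theorem pos_inj : Function.Injective (pos : FreeGroup (Fin r) × II r m N → ℝ) := by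
  rintro ⟨g, i⟩ ⟨g', i'⟩ h
  have h1 : AA r (g'⁻¹ * g) (xp i) = xp i' := by
    simp only [pos] at h
    rw [map_mul, Equiv.Perm.mul_apply, h]; simp
  have h2 := free_of_out (xp_out i) (xp_out i') _ h1
  rw [h2] at h1
  rw [inv_mul_eq_one] at h2
  rw [h2, xp_inj (by simpa using h1 : xp i = xp i')]

theorem lt_int {P a z : ℝ} (hP : 3 ≤ P) (j n : ℤ) (h1 : a + P * n < z) (h2 : z ≤ a + P * n + P) :
    a + P * j < z ↔ j ≤ n := by
  constructor
  · intro h
    have h3 : (j : ℝ) < n + 1 := by nlinarith
    have h4 : j < n + 1 := by exact_mod_cast h3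
    omega
  · intro h
    have h3 : (j : ℝ) ≤ n := by exact_mod_cast h
    nlinarith

theorem Es_in (s : Fin r) (z : ℝ) (h : In (s, true) z) (h0 : 0 ≤ z) (h1 : z < per r * m) :
    fsum (fun a => a < z) (blockF fun k : Fin m × Bool × Fin N => xp (s, k)) = N := by
  obtain ⟨n, h2, h3⟩ := h
  have hP := per_ge r
  have hc := cc_bd (s, true)
  have n0 : 0 ≤ n := by
    have h4 : (-1 : ℝ) < n := by nlinarith
    have h5 : -1 < n := by exact_mod_cast h4
    omega
  have n1 : n < m := by
    have h4 : (n : ℝ) < m := by nlinarith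
    exact_mod_cast h4
  have a1 : ∀ (j : Fin m) (c : Fin N), xp (s, j, false, c) < z ↔ (j : ℤ) ≤ n := fun j c => by
    have := off_false c
    rw [← lt_int (a := cc (s, true) + off (false, c)) (z := z) hP j n (by linarith) (by linarith)]
    simp only [xp]; push_cast; constructor <;> intro <;> linarith
  have a2 : ∀ (j : Fin m) (c : Fin N), xp (s, j, true, c) < z ↔ (j : ℤ) ≤ n - 1 := fun j c => by
    have := off_true c
    rw [← lt_int (a := cc (s, true) + off (true, c)) (z := z) hP j (n - 1)
      (by push_cast; linarith) (by push_cast; linarith)]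
    simp only [xp]; push_cast; constructor <;> intro <;> linarith
  rw [fsum_blockF]
  simp only [a1, a2]
  rw [sum_eq_single (⟨n.toNat, by omega⟩ : Fin m)]
  · simp [n0]
  · intro j _ hj
    have : (j : ℤ) ≠ n := fun h => hj (Fin.ext (by simp only; omega))
    have : ((j : ℤ) ≤ n - 1) ↔ (j : ℤ) ≤ n := by omega
    simp [this]
  · simp

theorem Es_far (s : Fin r) (z : ℝ) (h : Far (s, true) z) :
    fsum (fun a => a < z) (blockF fun k : Fin m × Bool × Fin N => xp (s, k)) = 0 := by
  obtain ⟨n, h2, h3⟩ := h
  have hP := per_ge r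
  have a1 : ∀ (j : Fin m) (k : Bool × Fin N), xp (s, j, k) < z ↔ (j : ℤ) ≤ n := fun j k => by
    have := off_bd k
    rw [← lt_int (a := cc (s, true) + off k) (z := z) hP j n (by linarith) (by linarith)]
    simp only [xp]; push_cast; constructor <;> intro <;> linarith
  rw [fsum_blockF]
  simp [a1]

/-- The value of the cocycle on a letter. -/
noncomputable def bb (m N : ℕ) : Fin r × Bool → (FreeGroup (Fin r) × II r m N →₀ ℝ)
  | (s, true) => blockF fun k => (mk [], (s, k))
  | (s, false) => -blockF fun k => (mk [(s, false)], (s, k))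

/-- The cocycle along a word. -/
noncomputable def WW (m N : ℕ) : List (Fin r × Bool) → (FreeGroup (Fin r) × II r m N →₀ ℝ)
  | [] => 0
  | t :: l => bb m N t + (WW m N l).mapDomain (sm (mk [t]))

theorem mapDomain_sm {I : Type} (g : FreeGroup (Fin r)) (W : FreeGroup (Fin r) × I →₀ ℝ)
    (a : FreeGroup (Fin r) × I) : W.mapDomain (sm g) a = W (sm g⁻¹ a) := by
  conv_lhs => rw [← sm_one a, ← mul_inv_cancel g, ← sm_sm]
  exact Finsupp.mapDomain_apply (fun a b h => by
    rw [← sm_one a, ← sm_one b, ← inv_mul_cancel g, ← sm_sm, ← sm_sm, h]) _ _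

theorem bb_ne (t : Fin r × Bool) (a : FreeGroup (Fin r) × II r m N) (h : bb m N t a ≠ 0) :
    a.2.1 = t.1 ∧ ∃ l : List (Fin r × Bool), l.length ≤ 1 ∧ a.1 = mk l := by
  rcases t with ⟨s, _ | _⟩
  · obtain ⟨k, rfl⟩ := blockF_ne _ a (neg_ne_zero.1 h)
    exact ⟨rfl, _, le_rfl, rfl⟩
  · obtain ⟨k, rfl⟩ := blockF_ne _ a h
    exact ⟨rfl, [], zero_le_one, rfl⟩

theorem bb_val (t : Fin r × Bool) (a : FreeGroup (Fin r) × II r m N) :
    bb m N t a = 0 ∨ bb m N t a = 1 ∨ bb m N t a = -1 := by
  rcases t with ⟨s, _ | _⟩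
  · have := blockF_val (fun k : Fin m × Bool × Fin N => (mk [(s, false)], (s, k)))
      (fun _ _ h => by simpa using h) a
    simp only [bb, Finsupp.neg_apply]
    rcases this with h | h | h <;> simp [h]
  · exact blockF_val _ (fun _ _ h => by simpa using h) a

theorem WW_ne (l : List (Fin r × Bool)) : ∀ a : FreeGroup (Fin r) × II r m N, WW m N l a ≠ 0 →
    a.2.1 ∈ l.map Prod.fst ∧ ∃ l' : List (Fin r × Bool), l'.length ≤ l.length ∧ a.1 = mk l' := by
  induction l with
  | nil => intro a h; simp [WW] at h
  | cons t l ih =>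
    intro a h
    by_cases h1 : bb m N t a = 0
    · rw [WW, Finsupp.add_apply, h1, zero_add, mapDomain_sm] at h
      obtain ⟨h2, l', h3, h4⟩ := ih _ h
      refine ⟨List.mem_cons_of_mem _ h2, t :: l', by simpa using h3, ?_⟩
      rw [show mk (t :: l') = mk [t] * mk l' from rfl, ← h4, sm_fst, mul_inv_cancel_left]
    · obtain ⟨h2, l', h3, h4⟩ := bb_ne t a h1
      exact ⟨by simp [h2], l', by simp; omega, h4⟩

theorem WW_val (l : List (Fin r × Bool)) (hl : (l.map Prod.fst).Nodup) :
    ∀ a : FreeGroup (Fin r) × II r m N, WW m N l a = 0 ∨ WW m N l a = 1 ∨ WW m N l a = -1 := by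
  induction l with
  | nil => intro a; simp [WW]
  | cons t l ih =>
    intro a
    rw [List.map_cons, List.nodup_cons] at hl
    rw [WW, Finsupp.add_apply, mapDomain_sm]
    by_cases h1 : bb m N t a = 0
    · rw [h1, zero_add]; exact ih hl.2 _
    · have h2 : WW m N l (sm (mk [t])⁻¹ a) = 0 := by
        by_contra h2
        have h3 := (WW_ne l _ h2).1
        rw [sm_snd, (bb_ne t a h1).1] at h3
        exact hl.1 h3
      rw [h2, add_zero]; exact bb_val t a

theorem WW_total (l : List (Fin r × Bool)) : fsum (fun _ => True) (WW m N l) = 0 := by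
  induction l with
  | nil => simp [WW]
  | cons t l ih =>
    rw [WW, map_add, fsum_map, ih]
    rcases t with ⟨s, _ | _⟩ <;> simp [bb, fsum_blockF]

theorem act_lt (t : Fin r × Bool) (x z : ℝ) : act t x < z ↔ x < act (bar t) z := by
  rw [← (act_mono (bar t)).lt_iff_lt, act_bar]

theorem Gs_cons (t : Fin r × Bool) (l : List (Fin r × Bool)) (z : ℝ) :
    fsum (fun a => pos a < z) (WW m N (t :: l)) =
      (if t.2 then fsum (fun a => a < z) (blockF fun k : Fin m × Bool × Fin N => xp (t.1, k))
        else -fsum (fun a => a < act (bar t) z)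
          (blockF fun k : Fin m × Bool × Fin N => xp (t.1, k))) +
      fsum (fun a => pos a < act (bar t) z) (WW m N l) := by
  rw [WW, map_add, fsum_map]
  simp only [pos_sm, AA_single, act_lt]
  rcases t with ⟨s, _ | _⟩ <;> simp [bb, fsum_blockF, pos, AA_nil, AA_single, act_lt]

/-- Far from the cores of a generator and of its inverse. -/
def Clear (s : Fin r) (z : ℝ) : Prop := ∀ b, Far (s, b) z

theorem In.clear {t : Fin r × Bool} {z : ℝ} (h : In t z) {s : Fin r} (hs : t.1 ≠ s) : Clear s z :=
  fun _ => h.far fun h' => hs (congrArg Prod.fst h')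

theorem clear_AA {x : ℝ} (hx : ∀ s : Fin r, Clear s x) (l : List (Fin r × Bool))
    (hl : (l.map Prod.fst).Nodup) : ∀ s ∉ l.map Prod.fst, Clear s (AA r (mk l) x) := by
  induction l with
  | nil => intro s _; rw [AA_nil]; exact hx s
  | cons t l ih =>
    intro s hs
    rw [List.map_cons, List.nodup_cons] at hl
    rw [AA_cons]
    exact (ih hl.2 _ hl.1 _).out.act.clear fun h => hs (by simp [h])

theorem Gs_plus {x : ℝ} (hx : ∀ s : Fin r, Clear s x) (l : List (Fin r × Bool))
    (hl : (l.map Prod.fst).Nodup) (h0 : 2 * per r * l.length ≤ x)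
    (h1 : x + 2 * per r * l.length < per r * m) :
    fsum (fun a => pos a < AA r (mk l) x) (WW m N l) = N * (l.countP (·.2) : ℕ) := by
  induction l with
  | nil => simp [WW]
  | cons t l ih =>
    have hP := per_ge r
    have hb := AA_bd (t :: l) x
    rw [List.map_cons, List.nodup_cons] at hl
    have hc := clear_AA hx l hl.2 _ hl.1
    rw [List.length_cons] at h0 h1 hb
    push_cast at h0 h1 hb
    rw [Gs_cons, AA_cons, act_bar, ih hl.2 (by linarith) (by linarith)]
    rw [AA_cons] at hb
    rcases t with ⟨s, _ | _⟩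
    · simp [Es_far s _ (hc true)]
    · rw [if_pos rfl, Es_in s _ (hc false).out.act (by linarith) (by linarith)]
      simp [mul_add, add_comm]

theorem Gs_minus (l : List (Fin r × Bool)) (hl : (l.map Prod.fst).Nodup) : ∀ z : ℝ,
    (∀ s ∈ l.map Prod.fst, Clear s z) → 2 * per r * l.length ≤ z →
    z + 2 * per r * l.length < per r * m →
    fsum (fun a => pos a < z) (WW m N l) = -(N * (l.countP (!·.2) : ℕ)) := by
  induction l with
  | nil => simp [WW]
  | cons t l ih =>
    intro z hz h0 h1
    have hP := per_ge r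
    have hb := act_bd (bar t) z
    rw [List.map_cons, List.nodup_cons] at hl
    have hc := hz t.1 (by simp)
    have hi : In (bar t) (act (bar t) z) := Out.act (by simpa [bar] using (hc t.2).out)
    rw [List.length_cons] at h0 h1
    push_cast at h0 h1
    have hl0 : 0 ≤ 2 * per r * l.length := by positivity
    rw [Gs_cons, ih hl.2 _ (fun s hs => hi.clear fun h => hl.1 (by rwa [← h] at hs))
      (by linarith) (by linarith)]
    rcases t with ⟨s, _ | _⟩
    · rw [if_neg (by simp), Es_in s _ hi (by linarith) (by linarith)]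
      simp [mul_add]
    · simp [Es_far s _ (hc true)]

theorem countP_add (l : List (Fin r × Bool)) : l.countP (·.2) + l.countP (!·.2) = l.length := by
  induction l with
  | nil => rfl
  | cons t l ih => rcases t with ⟨s, _ | _⟩ <;> simp <;> omega

theorem model_lower {ν : List ℝ → ℝ} {θ p K : ℝ} (h : Spread ν θ p K) (k : ℕ)
    (l : List (Fin r × Bool)) (hl : (l.map Prod.fst).Nodup) (hk : l.length = 2 * k) :
    ν (alt (N * k) (16 * k + 2)) ≤
      ν (wordOf ((WW (2 * (16 * k + 2)) N l).mapDomain pos)) := by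
  classical
  have hP := per_ge r
  set W := (WW (2 * (16 * k + 2)) N l).mapDomain pos with hW
  have val : ∀ a, W a = 0 ∨ W a = 1 ∨ W a = -1 := fun a => by
    by_cases ha : a ∈ Set.range (pos : FreeGroup (Fin r) × II r (2 * (16 * k + 2)) N → ℝ)
    · obtain ⟨b, rfl⟩ := ha
      rw [hW, Finsupp.mapDomain_apply pos_inj]
      exact WW_val l hl b
    · exact Or.inl (Finsupp.mapDomain_of_notMem_range _ _ ha)
  have tot : fsum (fun _ => True) W = 0 := by rw [hW, fsum_map, WW_total]
  set x0 : ℝ := per r - 3 / 2 with hx0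
  have clr : ∀ (j : ℤ) (s : Fin r), Clear s (x0 + per r * j) := fun j s b =>
    Zone.far (i := 2 * r) ⟨j, by rw [hx0, per]; push_cast; linarith,
      by rw [hx0, per]; push_cast; linarith⟩ le_rfl (idx_lt _).ne'
  obtain ⟨n0, u, hu, u0, u1⟩ := decomp (per_two r) (AA r (mk l) x0 - x0)
  have hb := AA_bd l x0
  rw [hk] at hb
  push_cast at hb
  have n1 : n0 ≤ 4 * k := by
    have : (n0 : ℝ) ≤ 4 * k := by nlinarith [hb.2]
    exact_mod_cast this
  have n2 : -4 * k ≤ n0 := by
    have : (-4 * k : ℝ) < n0 + 1 := by nlinarith [hb.1]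
    have : -4 * (k : ℤ) < n0 + 1 := by exact_mod_cast this
    omega
  let q : ℕ → ℝ := fun n => x0 + per r * (8 * k + (n / 2 : ℕ)) + if n % 2 = 0 then 0 else u
  have qm : Monotone q := monotone_nat_of_le_succ fun n => by
    rcases Nat.even_or_odd' n with ⟨j, rfl | rfl⟩
    · have e1 : (2 * j + 1) / 2 = j := by omega
      have e2 : (2 * j) / 2 = j := by omega
      simp [q, e1, e2, u0]
    · have e1 : (2 * j + 1) / 2 = j := by omega
      have e2 : (2 * j + 1 + 1) / 2 = j + 1 := by omega
      have e3 : (2 * j + 1 + 1) % 2 = 0 := by omega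
      simp only [q, e1, e2, e3, Nat.mul_add_mod, if_true]
      push_cast
      linarith
  let g : ℕ → ℤ := fun n => if n % 2 = 0 then -(N * l.countP (!·.2)) else N * l.countP (·.2)
  have hg : ∀ n ≤ 2 * (16 * k + 2) + 1, fsum (fun a => a < q n) W = g n := fun n hn => by
    rw [hW, fsum_map]
    have e1 : ((n / 2 : ℕ) : ℝ) ≤ 16 * k + 2 := by
      have : n / 2 ≤ 16 * k + 2 := by omega
      exact_mod_cast this
    have e2 : (0 : ℝ) ≤ (n / 2 : ℕ) := by positivity
    have e3 : (0 : ℝ) ≤ k := by positivity
    by_cases hn2 : n % 2 = 0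
    · have := clr (8 * k + (n / 2 : ℕ))
      simp only [q, g, hn2, if_true, add_zero]
      rw [Gs_minus l hl _ (fun s _ => by exact_mod_cast this s)]
      · simp
      · rw [hk]; push_cast; nlinarith
      · rw [hk]; push_cast; nlinarith
    · have e : q n = AA r (mk l) (x0 + per r * (8 * k + (n / 2 : ℕ) - n0 : ℤ)) := by
        rw [AA_add]
        simp only [q, hn2, if_false, Int.cast_sub, Int.cast_add, Int.cast_mul, Int.cast_natCast,
          Int.cast_ofNat]
        linarith
      have n1' : (n0 : ℝ) ≤ 4 * k := by exact_mod_cast n1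
      have n2' : (-4 * k : ℝ) ≤ n0 := by exact_mod_cast n2
      rw [e, Gs_plus (clr _) l hl]
      · simp [g, hn2]
      · simp only [hk, Int.cast_sub, Int.cast_add, Int.cast_mul, Int.cast_natCast,
          Int.cast_ofNat, Nat.cast_mul, Nat.cast_ofNat]
        nlinarith
      · simp only [hk, Int.cast_sub, Int.cast_add, Int.cast_mul, Int.cast_natCast,
          Int.cast_ofNat, Nat.cast_mul, Nat.cast_ofNat, Nat.cast_add]
        nlinarith
  have hc := countP_add l
  set B := 2 * (16 * k + 2) + 1 with hB
  rcases le_or_gt k (l.countP (·.2)) with h1 | h1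
  · refine h.thresholdW _ _ W val (by rw [total_sum, tot]) (fun n a => a < q (min n B))
      (fun n a b ha hb => ha.trans_le (not_lt.1 hb))
      (fun n a ha => ha.trans_le (qm (min_le_min_right _ n.le_succ))) (fun n => g (min n B))
      (fun n => by rw [filter_sum, hg _ (min_le_right _ _)]) (fun j hj => ?_) fun j hj => ?_
    · rw [min_eq_left (by omega)]
      simp only [g, Nat.mul_mod_right, if_true]
      exact neg_nonpos.2 (by positivity)
    · rw [min_eq_left (by omega)]
      simp only [g, Nat.mul_add_mod, one_ne_zero, if_false, Nat.one_mod]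
      exact_mod_cast Nat.mul_le_mul_left N h1
  · rw [← h.map_neg (wordOf W), ← wordOf_neg]
    refine h.thresholdW _ _ (-W) (fun a => ?_) (by rw [total_sum, map_neg, tot, neg_zero])
      (fun n a => a < q (min (n + 1) B))
      (fun n a b ha hb => ha.trans_le (not_lt.1 hb))
      (fun n a ha => ha.trans_le (qm (min_le_min_right _ (n + 1).le_succ)))
      (fun n => -g (min (n + 1) B))
      (fun n => by rw [filter_sum, map_neg, hg _ (min_le_right _ _), Int.cast_neg])
      (fun j hj => ?_) fun j hj => ?_
    · rcases val a with h | h | h <;> simp [h]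
    · rw [min_eq_left (by omega)]
      simp only [g, Nat.mul_add_mod, one_ne_zero, if_false, Nat.one_mod]
      exact neg_nonpos.2 (by positivity)
    · rw [min_eq_left (by omega)]
      have : (2 * j + 1 + 1) % 2 = 0 := by omega
      simp only [g, this, if_true, neg_neg]
      exact_mod_cast Nat.mul_le_mul_left N (by omega)

theorem model_step_word (s : Fin r) :
    wordOf ((bb m N (s, true)).mapDomain pos) = alt N m := by
  rw [bb, blockF_map]
  simp only [pos, AA_nil]
  exact wordOf_blockF m _ (xp_lt1 s) (xp_lt2 s) (xp_lt3 s)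

end Crest.Agent.MT
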