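import Mathlib
import Crest.Prelude.Def_MarkovType

set_option autoImplicit false

/-! A Bellman-function form of Enflo's renorming theorem. -/

namespace Crest.Agent.MT

open Finset

variable {X : Type*} [NormedAddCommGroup X] [NormedSpace ℝ X]

/-- `Tr ε x P J`: a finite martingale tree with root `x` and leaves in the ball of radius `2`,
where `P n` is the probability of at least `n` big jumps and `J` the mean number of them. -/
inductive Tr (ε : ℝ) : X → (ℕ → ℝ) → ℝ → Prop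
  | leaf (x : X) : ‖x‖ ≤ 2 → Tr ε x (fun n => if n = 0 then 1 else 0) 0
  | mix (x y : X) (P Q : ℕ → ℝ) (J J' a b : ℝ) : Tr ε x P J → Tr ε y Q J' → 0 ≤ a → 0 ≤ b →
      a + b = 1 → Tr ε (a • x + b • y) (fun n => a * P n + b * Q n) (a * J + b * J')
  | big (x y : X) (P Q : ℕ → ℝ) (J J' : ℝ) : Tr ε x P J → Tr ε y Q J' → ε ≤ ‖x - y‖ →
      Tr ε ((1 / 2 : ℝ) • x + (1 / 2 : ℝ) • y)
        (fun n => if n = 0 then 1 else (P (n - 1) + Q (n - 1)) / 2) (1 + (J + J') / 2)

variable {ε : ℝ}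

theorem Tr.norm_le {x : X} {P : ℕ → ℝ} {J : ℝ} (h : Tr ε x P J) : ‖x‖ ≤ 2 := by
  induction h with
  | leaf x hx => exact hx
  | mix x y P Q J J' a b _ _ ha hb hab h1 h2 =>
    have := norm_add_le (a • x) (b • y)
    rw [norm_smul, norm_smul, Real.norm_of_nonneg ha, Real.norm_of_nonneg hb] at this
    nlinarith
  | big x y P Q J J' _ _ _ h1 h2 =>
    have := norm_add_le ((1 / 2 : ℝ) • x) ((1 / 2 : ℝ) • y)
    rw [norm_smul, norm_smul, Real.norm_of_nonneg (by norm_num)] at this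
    linarith

theorem Tr.zero {x : X} {P : ℕ → ℝ} {J : ℝ} (h : Tr ε x P J) : P 0 = 1 := by
  induction h with
  | leaf x hx => simp
  | mix x y P Q J J' a b _ _ ha hb hab h1 h2 => simp [h1, h2, hab]
  | big x y P Q J J' _ _ _ h1 h2 => simp

theorem Tr.anti {x : X} {P : ℕ → ℝ} {J : ℝ} (h : Tr ε x P J) :
    ∀ n, 0 ≤ P n ∧ P (n + 1) ≤ P n := by
  induction h with
  | leaf x hx => intro n; by_cases h : n = 0 <;> simp [h]
  | mix x y P Q J J' a b _ _ ha hb hab h1 h2 =>
    intro n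
    obtain ⟨h3, h4⟩ := h1 n
    obtain ⟨h5, h6⟩ := h2 n
    constructor
    · positivity
    · nlinarith [mul_le_mul_of_nonneg_left h4 ha, mul_le_mul_of_nonneg_left h6 hb]
  | big x y P Q J J' t1 t2 _ h1 h2 =>
    intro n
    rcases n with _ | n
    · simp [t1.zero, t2.zero]
    · obtain ⟨h3, h4⟩ := h1 n
      obtain ⟨h5, h6⟩ := h2 n
      simp only [Nat.add_eq_zero_iff, one_ne_zero, and_false, if_false, Nat.add_sub_cancel]
      constructor <;> linarith

theorem Tr.neg {x : X} {P : ℕ → ℝ} {J : ℝ} (h : Tr ε x P J) : Tr ε (-x) P J := by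
  induction h with
  | leaf x hx => exact Tr.leaf _ (by simpa using hx)
  | mix x y P Q J J' a b _ _ ha hb hab h1 h2 =>
    have := Tr.mix _ _ _ _ _ _ a b h1 h2 ha hb hab
    rwa [smul_neg, smul_neg, ← neg_add] at this
  | big x y P Q J J' _ _ h h1 h2 =>
    have := Tr.big _ _ _ _ _ _ h1 h2 (by rwa [← neg_sub', norm_neg])
    rwa [smul_neg, smul_neg, ← neg_add] at this

theorem Tr.bound {n : ℕ} (hn : ∀ (x : X) P J, Tr ε x P J → P n ≤ 1 / 2)
    {x : X} {P : ℕ → ℝ} {J : ℝ} (h : Tr ε x P J) : ∀ m : ℕ, J ≤ m + 2 * n * P m := by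
  induction h with
  | leaf x hx => intro m; dsimp only; split_ifs <;> positivity
  | mix x y P Q J J' a b _ _ ha hb hab h1 h2 =>
    intro m
    have h3 := mul_le_mul_of_nonneg_left (h1 m) ha
    have h4 := mul_le_mul_of_nonneg_left (h2 m) hb
    have h5 : (m : ℝ) = a * m + b * m := by rw [← add_mul, hab, one_mul]
    nlinarith
  | big x y P Q J J' t1 t2 h h1 h2 =>
    have key : ∀ m : ℕ, 1 + (J + J') / 2 ≤ ((m + 1 : ℕ) : ℝ) + 2 * n * ((P m + Q m) / 2) := by
      intro m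
      have := h1 m
      have := h2 m
      push_cast
      linarith
    intro m
    rcases m with _ | m
    · have h0 := hn _ _ _ (Tr.big x y P Q J J' t1 t2 h)
      rcases n with _ | n
      · norm_num at h0
      · simp only [Nat.add_eq_zero_iff, one_ne_zero, and_false, if_false,
          Nat.add_sub_cancel] at h0
        have := key n
        have hn0 : (0 : ℝ) ≤ ((n + 1 : ℕ) : ℝ) := by positivity
        simp only [if_true]
        nlinarith
    · simpa using key m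

/-- The tail sum of coefficients. -/
def tl (k M : ℕ) (a : ℕ → ℝ) : ℝ := ∑ i ∈ range M, if k ≤ i then a i else 0

theorem Tr.family {x : X} {P : ℕ → ℝ} {J : ℝ} (h : Tr ε x P J) :
    ∃ (Ω : Type) (_ : Fintype Ω) (w : Ω → ℝ) (y : Ω → ℕ → X), (∀ ω, 0 ≤ w ω) ∧ ∑ ω, w ω = 1 ∧
      (∀ ω i, ‖y ω i‖ ≤ 2) ∧ (∀ i, ∑ ω, w ω • y ω i = x) ∧
      ∀ (k M : ℕ) (c : X) (a : ℕ → ℝ), ε / 2 * P (k + 1) * |tl k M a| ≤
        ∑ ω, w ω * ‖c + ∑ i ∈ range M, a i • y ω i‖ := by
  induction h with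
  | leaf x hx =>
    refine ⟨Unit, inferInstance, fun _ => 1, fun _ _ => x, by simp, by simp, by simp [hx],
      by simp, ?_⟩
    intro k M c a
    simp
  | mix x y P Q J J' a b _ _ ha hb hab h1 h2 =>
    obtain ⟨Ω, _, w, z, w0, w1, zn, zm, zs⟩ := h1
    obtain ⟨Ω', _, w', z', w0', w1', zn', zm', zs'⟩ := h2
    refine ⟨Ω ⊕ Ω', inferInstance, Sum.elim (fun ω => a * w ω) (fun ω => b * w' ω),
      Sum.elim z z', ?_, ?_, ?_, ?_, ?_⟩
    · rintro (ω | ω)
      · exact mul_nonneg ha (w0 ω)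
      · exact mul_nonneg hb (w0' ω)
    · simp [← mul_sum, w1, w1', hab]
    · rintro (ω | ω)
      · exact zn ω
      · exact zn' ω
    · intro i
      simp [mul_smul, ← smul_sum, zm, zm']
    · intro k M c u
      have h3 := mul_le_mul_of_nonneg_left (zs k M c u) ha
      have h4 := mul_le_mul_of_nonneg_left (zs' k M c u) hb
      simp only [Fintype.sum_sum_type, Sum.elim_inl, Sum.elim_inr, mul_assoc, ← mul_sum] at *
      linarith
  | big x y P Q J J' t1 t2 h h1 h2 =>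
    obtain ⟨Ω, _, w, z, w0, w1, zn, zm, zs⟩ := h1
    obtain ⟨Ω', _, w', z', w0', w1', zn', zm', zs'⟩ := h2
    refine ⟨Ω ⊕ Ω', inferInstance, Sum.elim (fun ω => 1 / 2 * w ω) (fun ω => 1 / 2 * w' ω),
      Sum.elim (fun ω i => Nat.casesOn i x (z ω)) (fun ω i => Nat.casesOn i y (z' ω)),
      ?_, ?_, ?_, ?_, ?_⟩
    · rintro (ω | ω)
      · exact mul_nonneg (by norm_num) (w0 ω)
      · exact mul_nonneg (by norm_num) (w0' ω)
    · simp only [Fintype.sum_sum_type, Sum.elim_inl, Sum.elim_inr, ← mul_sum, w1, w1']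
      norm_num
    · rintro (ω | ω) (_ | i)
      · exact t1.norm_le
      · exact zn ω i
      · exact t2.norm_le
      · exact zn' ω i
    · rintro (_ | i)
      · simp only [Fintype.sum_sum_type, Sum.elim_inl, Sum.elim_inr, mul_smul, ← smul_sum,
          ← sum_smul, w1, w1', one_smul, Nat.rec_zero]
      · simp only [Fintype.sum_sum_type, Sum.elim_inl, Sum.elim_inr, mul_smul, ← smul_sum,
          zm, zm']
    · intro k M c u
      rcases M with _ | M
      · simp only [tl, range_zero, sum_empty, abs_zero, mul_zero]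
        refine sum_nonneg ?_
        rintro (ω | ω) _
        · exact mul_nonneg (mul_nonneg (by norm_num) (w0 ω)) (norm_nonneg _)
        · exact mul_nonneg (mul_nonneg (by norm_num) (w0' ω)) (norm_nonneg _)
      simp only [Fintype.sum_sum_type, Sum.elim_inl, Sum.elim_inr, mul_assoc, ← mul_sum,
        sum_range_succ', Nat.add_eq_zero_iff, one_ne_zero, and_false, if_false,
        Nat.add_sub_cancel, Nat.rec_zero]
      rcases k with _ | k
      · have key : ∀ {Ω : Type} [Fintype Ω] (w : Ω → ℝ) (z : Ω → ℕ → X) (x : X),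
            (∀ ω, 0 ≤ w ω) → ∑ ω, w ω = 1 → (∀ i, ∑ ω, w ω • z ω i = x) →
            ‖c + tl 0 (M + 1) u • x‖ ≤
              ∑ ω, w ω * ‖c + (∑ i ∈ range M, u (i + 1) • z ω i + u 0 • x)‖ := by
          intro Ω _ w z x w0 w1 zm
          have : c + tl 0 (M + 1) u • x =
              ∑ ω, w ω • (c + (∑ i ∈ range M, u (i + 1) • z ω i + u 0 • x)) := by
            simp only [smul_add, sum_add_distrib, ← sum_smul, w1, one_smul, smul_sum, tl,
              zero_le, if_true, sum_range_succ', add_smul]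
            rw [sum_comm]
            simp only [smul_comm (w _), ← smul_sum, zm, sum_smul]
          rw [this]
          refine (norm_sum_le _ _).trans (sum_le_sum fun ω _ => ?_)
          rw [norm_smul, Real.norm_of_nonneg (w0 ω)]
        have h3 := key w z x w0 w1 zm
        have h4 := key w' z' y w0' w1' zm'
        have h5 := norm_sub_le (c + tl 0 (M + 1) u • x) (c + tl 0 (M + 1) u • y)
        rw [add_sub_add_left_eq_sub, ← smul_sub, norm_smul, Real.norm_eq_abs] at h5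
        have h6 := mul_le_mul_of_nonneg_left h (abs_nonneg (tl 0 (M + 1) u))
        rw [t1.zero, t2.zero]
        linarith
      · have h3 := zs k M (c + u 0 • x) fun i => u (i + 1)
        have h4 := zs' k M (c + u 0 • y) fun i => u (i + 1)
        have h5 : tl (k + 1) (M + 1) u = tl k M fun i => u (i + 1) := by
          simp [tl, sum_range_succ']
        rw [h5]
        simp only [add_assoc, add_comm (u 0 • _)] at h3 h4
        linarith

theorem renorm (H : ∀ ε : ℝ, 0 < ε → ∃ n : ℕ, ∀ (x : X) P J, Tr ε x P J → P n ≤ 1 / 2) :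
    Crest.AnalysisR.HasEquivUniformlyConvexNorm X := by
  classical
  choose n hn using fun k : ℕ => H (1 / (k + 1)) (by positivity)
  let G : ℕ → X → ℝ := fun k x => sSup {J | ∃ P, Tr (1 / (k + 1) : ℝ) x P J}
  have hbdd : ∀ (k : ℕ) (x : X), BddAbove {J | ∃ P, Tr (1 / (k + 1) : ℝ) x P J} := fun k x =>
    ⟨2 * n k, by
      rintro J ⟨P, h⟩
      simpa [h.zero] using h.bound (hn k) 0⟩
  have hne : ∀ (k : ℕ) (x : X), ‖x‖ ≤ 2 → {J | ∃ P, Tr (1 / (k + 1) : ℝ) x P J}.Nonempty :=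
    fun k x hx => ⟨0, _, Tr.leaf x hx⟩
  have G0 : ∀ k x, ‖x‖ ≤ 2 → 0 ≤ G k x := fun k x hx => le_csSup (hbdd k x) ⟨_, Tr.leaf x hx⟩
  have G1 : ∀ k x, ‖x‖ ≤ 2 → G k x ≤ 2 * n k := fun k x hx => csSup_le (hne k x hx) (by
    rintro J ⟨P, h⟩
    simpa [h.zero] using h.bound (hn k) 0)
  have Gneg : ∀ k x, G k (-x) = G k x := fun k x => by
    simp only [G]
    congr 1
    ext J
    exact ⟨fun ⟨P, h⟩ => ⟨P, by simpa using h.neg⟩, fun ⟨P, h⟩ => ⟨P, h.neg⟩⟩
  have two : ∀ (k : ℕ) (x y : X) (a b c : ℝ), ‖x‖ ≤ 2 → ‖y‖ ≤ 2 → 0 ≤ a → 0 ≤ b →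
      (∀ P J Q J', Tr (1 / (k + 1) : ℝ) x P J → Tr (1 / (k + 1) : ℝ) y Q J' →
        a * J + b * J' ≤ c) → a * G k x + b * G k y ≤ c := by
    intro k x y a b c hx hy ha hb h
    refine le_of_forall_pos_le_add fun η hη => ?_
    have hab : 0 < a + b + 1 := by positivity
    obtain ⟨J, ⟨P, hP⟩, hJ⟩ := exists_lt_of_lt_csSup (hne k x hx)
      (sub_lt_self (G k x) (div_pos hη hab))
    obtain ⟨J', ⟨Q, hQ⟩, hJ'⟩ := exists_lt_of_lt_csSup (hne k y hy)
      (sub_lt_self (G k y) (div_pos hη hab))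
    have h1 := h P J Q J' hP hQ
    have h2 := mul_le_mul_of_nonneg_left hJ.le ha
    have h3 := mul_le_mul_of_nonneg_left hJ'.le hb
    have h4 : (a + b + 1) * (η / (a + b + 1)) = η := by field_simp
    have h5 := div_pos hη hab
    nlinarith
  have Gmix : ∀ (k : ℕ) (x y : X) (a b : ℝ), ‖x‖ ≤ 2 → ‖y‖ ≤ 2 → 0 ≤ a → 0 ≤ b → a + b = 1 →
      a * G k x + b * G k y ≤ G k (a • x + b • y) := fun k x y a b hx hy ha hb hab =>
    two k x y a b _ hx hy ha hb fun P J Q J' h1 h2 =>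
      le_csSup (hbdd k _) ⟨_, Tr.mix _ _ _ _ _ _ a b h1 h2 ha hb hab⟩
  have Gbig : ∀ (k : ℕ) (x y : X), ‖x‖ ≤ 2 → ‖y‖ ≤ 2 → (1 / (k + 1) : ℝ) ≤ ‖x - y‖ →
      1 / 2 * G k x + 1 / 2 * G k y ≤ G k ((1 / 2 : ℝ) • x + (1 / 2 : ℝ) • y) - 1 :=
    fun k x y hx hy h =>
    two k x y _ _ _ hx hy (by norm_num) (by norm_num) fun P J Q J' h1 h2 => by
      have := le_csSup (hbdd k _) ⟨_, Tr.big _ _ _ _ _ _ h1 h2 h⟩
      linarith
  have Gle : ∀ k x, ‖x‖ ≤ 2 → G k x ≤ G k 0 := fun k x hx => by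
    have := Gmix k x (-x) (1 / 2) (1 / 2) hx (by simpa using hx) (by norm_num) (by norm_num)
      (by norm_num)
    rw [Gneg, smul_neg, add_neg_cancel] at this
    linarith
  let c : ℕ → ℝ := fun k => 1 / 2 / 2 / 2 ^ k / (2 * n k + 1)
  have c0 : ∀ k, 0 < c k := fun k => by positivity
  let u : ℕ → X → ℝ := fun k x => c k * (G k 0 - G k x)
  have u0 : ∀ k x, ‖x‖ ≤ 2 → 0 ≤ u k x := fun k x hx =>
    mul_nonneg (c0 k).le (sub_nonneg.2 (Gle k x hx))
  have u1 : ∀ k x, ‖x‖ ≤ 2 → u k x ≤ 1 / 2 / 2 / 2 ^ k := fun k x hx => by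
    have h1 := G0 k x hx
    have h2 := G1 k 0 (by simp)
    have h3 : c k * (2 * n k + 1) = 1 / 2 / 2 / 2 ^ k := by
      simp only [c]; field_simp
    rw [← h3]
    exact mul_le_mul_of_nonneg_left (by linarith) (c0 k).le
  have us : ∀ x, ‖x‖ ≤ 2 → Summable fun k => u k x := fun x hx =>
    Summable.of_nonneg_of_le (fun k => u0 k x hx) (fun k => u1 k x hx)
      (summable_geometric_two' _)
  let Φ : X → ℝ := fun x => ‖x‖ + ∑' k, u k x
  have Φ0 : ∀ x, ‖x‖ ≤ 2 → ‖x‖ ≤ Φ x := fun x hx =>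
    le_add_of_nonneg_right (tsum_nonneg fun k => u0 k x hx)
  have Φ1 : ∀ x, ‖x‖ ≤ 2 → Φ x ≤ ‖x‖ + 1 / 2 := fun x hx => by
    have := (us x hx).tsum_le_tsum (fun k => u1 k x hx) (summable_geometric_two' _)
    rw [tsum_geometric_two'] at this
    simp only [Φ]
    linarith
  have nmix : ∀ (x y : X) (a b : ℝ), 0 ≤ a → 0 ≤ b → ‖a • x + b • y‖ ≤ a * ‖x‖ + b * ‖y‖ :=
    fun x y a b ha hb => by
    have := norm_add_le (a • x) (b • y)
    rwa [norm_smul, norm_smul, Real.norm_of_nonneg ha, Real.norm_of_nonneg hb] at this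
  have nmix2 : ∀ (x y : X) (a b : ℝ), ‖x‖ ≤ 2 → ‖y‖ ≤ 2 → 0 ≤ a → 0 ≤ b → a + b = 1 →
      ‖a • x + b • y‖ ≤ 2 := fun x y a b hx hy ha hb hab => by
    have := nmix x y a b ha hb
    nlinarith
  have Φgap : ∀ (x y : X) (a b : ℝ) (k : ℕ), ‖x‖ ≤ 2 → ‖y‖ ≤ 2 → 0 ≤ a → 0 ≤ b → a + b = 1 →
      Φ (a • x + b • y) + c k * (G k (a • x + b • y) - (a * G k x + b * G k y)) ≤
        a * Φ x + b * Φ y := fun x y a b k hx hy ha hb hab => by
    have hz := nmix2 x y a b hx hy ha hb hab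
    have e : ∀ j, a * u j x + b * u j y - u j (a • x + b • y) =
        c j * (G j (a • x + b • y) - (a * G j x + b * G j y)) := fun j => by
      simp only [u]
      linear_combination (c j * G j 0) * hab
    have hs := (((us x hx).hasSum.mul_left a).add ((us y hy).hasSum.mul_left b)).sub
      (us _ hz).hasSum
    simp only [e] at hs
    have := le_hasSum hs k fun j _ =>
      mul_nonneg (c0 j).le (sub_nonneg.2 (Gmix j x y a b hx hy ha hb hab))
    have := nmix x y a b ha hb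
    simp only [Φ]
    linarith
  have Φmix : ∀ (x y : X) (a b : ℝ), ‖x‖ ≤ 2 → ‖y‖ ≤ 2 → 0 ≤ a → 0 ≤ b → a + b = 1 →
      Φ (a • x + b • y) ≤ a * Φ x + b * Φ y := fun x y a b hx hy ha hb hab => by
    have h1 := Φgap x y a b 0 hx hy ha hb hab
    have h2 := mul_nonneg (c0 0).le (sub_nonneg.2 (Gmix 0 x y a b hx hy ha hb hab))
    linarith
  let S : Set X := {x | ‖x‖ ≤ 2 ∧ Φ x ≤ 1}
  have hconv : Convex ℝ S := fun x hx y hy a b ha hb hab =>
    ⟨nmix2 x y a b hx.1 hy.1 ha hb hab, by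
      have := Φmix x y a b hx.1 hy.1 ha hb hab
      nlinarith [hx.2, hy.2]⟩
  have hbal : Balanced ℝ S := (balanced_iff_neg_mem hconv).2 fun x hx =>
    ⟨by simpa using hx.1, by simpa [Φ, u, Gneg] using hx.2⟩
  have hball : Metric.ball (0 : X) (1 / 2) ⊆ S := fun x hx => by
    rw [mem_ball_zero_iff] at hx
    exact ⟨by linarith, by linarith [Φ1 x (by linarith)]⟩
  have hball' : S ⊆ Metric.closedBall (0 : X) 1 := fun x hx => by
    rw [mem_closedBall_zero_iff]
    exact (Φ0 x hx.1).trans hx.2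
  have habs : Absorbent ℝ S := (absorbent_ball_zero (by norm_num)).mono hball
  have h0S : (0 : X) ∈ S := hball (by simp)
  have hup : ∀ x, gauge S x ≤ 2 * ‖x‖ := fun x => by
    have := gauge_mono (absorbent_ball_zero (by norm_num)) hball x
    rw [gauge_ball (by norm_num)] at this
    linarith
  refine ⟨gaugeSeminorm hbal hconv habs, 1, 2, one_pos, two_pos, fun x => ⟨?_, hup x⟩, ?_⟩
  · have := gauge_mono habs hball' x
    rw [gauge_closedBall zero_le_one] at this
    simpa using this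
  · intro e he _
    obtain ⟨k, hk⟩ := exists_nat_one_div_lt (show 0 < e / 4 by positivity)
    have ck : c k ≤ 1 := by
      simp only [c]
      rw [div_le_one (by positivity), div_le_iff₀ (by positivity)]
      have : (1 : ℝ) ≤ 2 ^ k := one_le_pow₀ (by norm_num)
      have : (0 : ℝ) ≤ n k := by positivity
      nlinarith
    have ck0 := c0 k
    set γ := c k / 3 with hγ
    have γ0 : 0 < γ := by positivity
    have γ1 : γ ≤ 1 / 3 := by linarith
    refine ⟨γ / 2 / (1 + γ), by positivity, fun x y hx hy hxy => ?_⟩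
    change gauge S x ≤ 1 at hx
    change gauge S y ≤ 1 at hy
    change e ≤ gauge S (x - y) at hxy
    change gauge S _ ≤ _
    set l : ℝ := (1 + γ / 2)⁻¹ with hl
    have l0 : 0 < l := by positivity
    have l1 : l < 1 := inv_lt_one_of_one_lt₀ (by linarith)
    have l2 : 1 / 2 ≤ l := by
      rw [hl, one_div]
      exact inv_anti₀ (by positivity) (by linarith)
    have mem : ∀ x, gauge S x ≤ 1 → l • x ∈ S := fun x hx => by
      apply setOfPred_gauge_lt_one_subset_self hconv h0S habs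
      change gauge S (l • x) < 1
      rw [gauge_smul_of_nonneg l0.le, smul_eq_mul]
      nlinarith [gauge_nonneg (s := S) x]
    have hx' := mem x hx
    have hy' := mem y hy
    have hd : (1 / (k + 1) : ℝ) ≤ ‖l • x - l • y‖ := by
      rw [← smul_sub, norm_smul, Real.norm_of_nonneg l0.le]
      have := hup (x - y)
      nlinarith [norm_nonneg (x - y)]
    have h1 := Φgap _ _ (1 / 2) (1 / 2) k hx'.1 hy'.1 (by norm_num) (by norm_num) (by norm_num)
    have h2 := Gbig k _ _ hx'.1 hy'.1 hd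
    set m := (1 / 2 : ℝ) • l • x + (1 / 2 : ℝ) • l • y with hm
    have h3 : Φ m ≤ 1 - c k := by nlinarith [hx'.2, hy'.2]
    have hm2 : ‖m‖ ≤ 2 := nmix2 _ _ _ _ hx'.1 hy'.1 (by norm_num) (by norm_num) (by norm_num)
    have hm1 : ‖(2 : ℝ) • m‖ ≤ 2 := by
      rw [norm_smul, Real.norm_of_nonneg (by norm_num)]
      linarith [Φ0 m hm2]
    have h4 := Φmix m ((2 : ℝ) • m) (1 - γ) γ hm2 hm1 (by linarith) γ0.le (by ring)
    have h5 := Φ1 _ hm1
    have h6 : (1 - γ) • m + γ • (2 : ℝ) • m ∈ S :=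
      ⟨nmix2 _ _ _ _ hm2 hm1 (by linarith) γ0.le (by ring), by nlinarith⟩
    have h7 : (1 - γ) • m + γ • (2 : ℝ) • m = ((1 + γ) * l) • (1 / 2 : ℝ) • (x + y) := by
      rw [hm]; module
    have h8 := gauge_le_one_of_mem h6
    rw [h7, gauge_smul_of_nonneg (by positivity), smul_eq_mul, ← le_div_iff₀' (by positivity)]
      at h8
    refine h8.trans (le_of_eq ?_)
    rw [hl]
    field_simp
    ring

end Crest.Agent.MT
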