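import Crest.Agent.MT.Good
import Crest.Agent.MT.Renorm

set_option autoImplicit false

/-! The spreading-invariant seminorm on words produced by long martingale trees. -/

namespace Crest.Agent.MT

open Filter Topology Finset

/-- A spreading-invariant seminorm on finite real sequences, with Markov type. -/
structure Spread (ν : List ℝ → ℝ) (θ p K : ℝ) : Prop where
  good : ∀ (V : Type) [AddCommGroup V] [Module ℝ V] (L : List (V →ₗ[ℝ] ℝ)),
    Good (fun a => ν (L.map fun f => f a)) p K
  drop : ∀ u v, ν (u ++ 0 :: v) = ν (u ++ v)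
  upper : ∀ l, ν l ≤ 2 * (l.map abs).sum
  lower : ∀ u v, θ * |v.sum| ≤ ν (u ++ v)

theorem tendsto_ulim (f : ℕ → ℝ) (C : ℝ) (h : ∀ i, 0 ≤ f i ∧ f i ≤ C) :
    Tendsto f (hyperfilter ℕ) (𝓝 (limUnder (hyperfilter ℕ : Filter ℕ) f)) := by
  obtain ⟨a, -, ha⟩ := (isCompact_Icc (a := (0 : ℝ)) (b := C)).ultrafilter_le_nhds
    ((hyperfilter ℕ).map f) (by
      rw [Ultrafilter.coe_map, le_principal_iff, Filter.mem_map]
      exact univ_mem' h)
  exact tendsto_nhds_limUnder ⟨a, ha⟩

theorem eventually_hyper (k : ℕ) : ∀ᶠ i in (hyperfilter ℕ : Filter ℕ), k ≤ i :=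
  (Nat.hyperfilter_le_atTop) (eventually_ge_atTop k)

/-- Tail sums as linear functionals. -/
noncomputable def tail (k : ℕ) : (ℕ →₀ ℝ) →ₗ[ℝ] ℝ :=
  Finsupp.linearCombination ℝ fun i => if k ≤ i then (1 : ℝ) else 0

theorem exists_mu {X : Type*} [NormedAddCommGroup X] [NormedSpace ℝ X] {p K ε : ℝ} (hp : 1 ≤ p)
    (hX : Crest.AnalysisR.HasMarkovType X p K) (hε : 0 < ε)
    (H : ∀ n : ℕ, ∃ (x : X) (P : ℕ → ℝ) (J : ℝ), Tr ε x P J ∧ 1 / 2 < P n) :
    ∃ μ : (ℕ →₀ ℝ) → ℝ, Good μ p K ∧ (∀ i c, μ (Finsupp.single i c) ≤ 2 * |c|) ∧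
      ∀ k a, ε / 4 * |tail k a| ≤ μ a := by
  have hp0 : 0 < p := by linarith
  have hN : Good (fun x : X => ‖x‖) p K :=
    ⟨norm_add_le, fun c a => by rw [norm_smul, Real.norm_eq_abs], hX⟩
  have step : ∀ n : ℕ, ∃ μ : (ℕ →₀ ℝ) → ℝ, Good μ p K ∧
      (∀ i c, μ (Finsupp.single i c) ≤ 2 * |c|) ∧
      ∀ k a, k < n → ε / 4 * |tail k a| ≤ μ a := by
    intro n
    obtain ⟨x, P, J, hT, hP⟩ := H n
    obtain ⟨Ω, _, w, y, w0, w1, yn, -, ys⟩ := hT.family
    refine ⟨_, Good.lp hp w w0 fun ω => hN.comp (Finsupp.linearCombination ℝ (y ω)), ?_, ?_⟩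
    · intro i c
      have h1 : ∑ ω, w ω * ‖Finsupp.linearCombination ℝ (y ω) (Finsupp.single i c)‖ ^ p ≤
          (2 * |c|) ^ p := by
        rw [← one_mul ((2 * |c|) ^ p), ← w1, sum_mul]
        refine sum_le_sum fun ω _ => mul_le_mul_of_nonneg_left
          (Real.rpow_le_rpow (norm_nonneg _) ?_ hp0.le) (w0 ω)
        rw [Finsupp.linearCombination_single, norm_smul, Real.norm_eq_abs, mul_comm]
        exact mul_le_mul_of_nonneg_right (yn ω i) (abs_nonneg c)
      refine (Real.rpow_le_rpow (sum_nonneg fun ω _ => mul_nonneg (w0 ω) (by positivity)) h1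
        (by positivity)).trans (le_of_eq ?_)
      rw [← Real.rpow_mul (by positivity), mul_one_div_cancel hp0.ne', Real.rpow_one]
    · intro k a hk
      obtain ⟨M, hM⟩ := a.support.exists_nat_subset_range
      have h1 := ys k M 0 a
      have h2 : tl k M a = tail k a := by
        rw [tail, Finsupp.linearCombination_apply,
          Finsupp.sum_of_support_subset _ hM _ (by simp), tl]
        exact sum_congr rfl fun i _ => by simp
      have h3 : ∀ ω, ∑ i ∈ range M, a i • y ω i = Finsupp.linearCombination ℝ (y ω) a :=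
        fun ω => by
          rw [Finsupp.linearCombination_apply, Finsupp.sum_of_support_subset _ hM _ (by simp)]
      have h4 : P n ≤ P (k + 1) := antitone_nat_of_succ_le (fun m => (hT.anti m).2) hk
      simp only [zero_add, h2, h3] at h1
      have h5 := Real.arith_mean_le_rpow_mean univ w
        (fun ω => ‖Finsupp.linearCombination ℝ (y ω) a‖) (fun ω _ => w0 ω) w1
        (fun ω _ => norm_nonneg _) hp
      refine le_trans (mul_le_mul_of_nonneg_right ?_ (abs_nonneg _)) (h1.trans h5)
      nlinarith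
  choose μ h1 h2 h3 using step
  have hb : ∀ a, Tendsto (fun n => μ n a) (hyperfilter ℕ)
      (𝓝 (limUnder (hyperfilter ℕ : Filter ℕ) fun n => μ n a)) := fun a =>
    tendsto_ulim _ (∑ i ∈ a.support, 2 * |a i|) fun n => ⟨(h1 n).nonneg a, by
      conv_lhs => rw [← a.sum_single, Finsupp.sum]
      exact ((h1 n).sum_le _ _).trans (sum_le_sum fun i _ => h2 n i _)⟩
  refine ⟨_, Good.lim hp0.le h1 hb, fun i c => le_of_tendsto' (hb _) fun n => h2 n i c,
    fun k a => ge_of_tendsto (hb a) ((eventually_hyper (k + 1)).mono fun n hn => h3 n k a hn)⟩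

/-- Iterated ultralimits. -/
noncomputable def Nl (μ : (ℕ →₀ ℝ) → ℝ) : List ℝ → (ℕ →₀ ℝ) → ℝ
  | [], v => μ v
  | a :: l, v => limUnder (hyperfilter ℕ : Filter ℕ) fun i => Nl μ l (v + Finsupp.single i a)

theorem exists_spread {μ : (ℕ →₀ ℝ) → ℝ} {θ p K : ℝ} (hp : 0 ≤ p) (hμ : Good μ p K)
    (h1 : ∀ i c, μ (Finsupp.single i c) ≤ 2 * |c|) (h2 : ∀ k a, θ * |tail k a| ≤ μ a) :
    ∃ ν, Spread ν θ p K := by
  have hb : ∀ (l : List ℝ) v, 0 ≤ Nl μ l v ∧ Nl μ l v ≤ μ v + 2 * (l.map abs).sum := by
    intro l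
    induction l with
    | nil => intro v; simp [Nl, hμ.nonneg]
    | cons a l ih =>
      intro v
      have hbd : ∀ i, 0 ≤ Nl μ l (v + Finsupp.single i a) ∧ Nl μ l (v + Finsupp.single i a) ≤
          μ v + 2 * ((a :: l).map abs).sum := fun i => ⟨(ih _).1, by
        have := (ih (v + Finsupp.single i a)).2
        have := hμ.add v (Finsupp.single i a)
        have := h1 i a
        simp only [List.map_cons, List.sum_cons]
        linarith⟩
      have := tendsto_ulim _ _ hbd
      exact ⟨ge_of_tendsto' this fun i => (hbd i).1, le_of_tendsto' this fun i => (hbd i).2⟩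
  have ht : ∀ (l : List ℝ) a v, Tendsto (fun i => Nl μ l (v + Finsupp.single i a))
      (hyperfilter ℕ) (𝓝 (Nl μ (a :: l) v)) := fun l a v =>
    tendsto_ulim _ (μ v + 2 * |a| + 2 * (l.map abs).sum) fun i => ⟨(hb _ _).1, by
      have := (hb l (v + Finsupp.single i a)).2
      have := hμ.add v (Finsupp.single i a)
      have := h1 i a
      linarith⟩
  refine ⟨fun l => Nl μ l 0, fun V _ _ L => ?_, fun u v => ?_, fun l => ?_, fun u v => ?_⟩
  · have : ∀ A : V →ₗ[ℝ] (ℕ →₀ ℝ), Good (fun a => Nl μ (L.map fun f => f a) (A a)) p K := by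
      induction L with
      | nil => intro A; exact hμ.comp A
      | cons f L ih =>
        intro A
        exact Good.lim (F := hyperfilter ℕ) hp
          (fun i => ih (A + (Finsupp.lsingle i).comp f)) fun a => ht _ _ _
    exact this 0
  · generalize (0 : ℕ →₀ ℝ) = w
    induction u generalizing w with
    | nil =>
      refine tendsto_nhds_unique (ht v 0 w) ?_
      simp
    | cons a u ih => simp only [List.cons_append, Nl, ih]
  · simpa [hμ.zero] using (hb l 0).2
  · have h3 : ∀ (v : List ℝ) k w, θ * |tail k w + v.sum| ≤ Nl μ v w := by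
      intro v
      induction v with
      | nil => intro k w; simpa [Nl] using h2 k w
      | cons a v ih =>
        intro k w
        refine ge_of_tendsto (ht v a w) ((eventually_hyper k).mono fun i hi => ?_)
        have := ih k (w + Finsupp.single i a)
        simpa [tail, hi, add_assoc] using this
    generalize (0 : ℕ →₀ ℝ) = w
    induction u generalizing w with
    | nil =>
      obtain ⟨M, hM⟩ := w.support.exists_nat_subset_range
      have h4 : tail M w = 0 := by
        rw [tail, Finsupp.linearCombination_apply, Finsupp.sum]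
        refine sum_eq_zero fun i hi => ?_
        have := mem_range.1 (hM hi)
        simp [this]
      simpa [h4] using h3 v M w
    | cons a u ih => exact ge_of_tendsto' (ht _ a w) fun i => ih _

end Crest.Agent.MT
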